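import Crest.Agent.R339.D2.Defs

/-! # Row 339, block D2: locality, invariants, bipartite gates (statements frozen) -/

set_option autoImplicit false
open MeasureTheory ProbabilityTheory Filter Topology Complex
open Crest.MathPhysics.SpinGlass

namespace Crest.Agent.R339
variable {E K : Type} [NormedAddCommGroup E] [InnerProductSpace ℂ E]
  [NormedAddCommGroup K] [InnerProductSpace ℂ K] [CompleteSpace K]
namespace Model
variable {M : Model E K} {j : Lp K 2 mu0 →ₗᵢ[ℂ] E} {η : ℝ} {P : ℕ → List (ℝ × (ℕ → ℝ))}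
  {f : Set ℝ → ℕ → E}

theorem Loc.mono {T T' : Set ℝ} {U : K →L[ℂ] K} (h : M.Loc j T U) (hT : T' ⊆ T) :
    M.Loc j T' U := by
  exact fun y hy => h y fun u hu => hy u fun h' => hu (hT h')
theorem Loc.mul {T : Set ℝ} {U U' : K →L[ℂ] K} (h : M.Loc j T U) (h' : M.Loc j T U') :
    M.Loc j T (U * U') := by
  exact fun y hy => (h y hy).mul_right (h' y hy)
theorem Loc.star' {T : Set ℝ} {U : K →L[ℂ] K} (h : M.Loc j T U) : M.Loc j T (star U) := by
  intro y hy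
  have := (h (fun u => -y u) fun u hu => by rw [hy u hu, neg_zero]).star_star
  rwa [JJ_neg, M.W_star, neg_neg] at this
theorem Loc.smul {T : Set ℝ} {U : K →L[ℂ] K} (h : M.Loc j T U) (c : ℂ) : M.Loc j T (c • U) := by
  exact fun y hy => (h y hy).smul_right c
theorem loc_one (T : Set ℝ) : M.Loc j T 1 := by
  exact fun _ _ => Commute.one_right _
theorem loc_RX (T : Set ℝ) (a : ℝ) : M.Loc j T (M.RX a) := by
  exact fun _ _ => M.a6_RX_W a _
theorem loc_WZ {T : Set ℝ} {y : ℝ → K} (hy : ∀ u ∈ T, y u = 0) (c : ℂ) :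
    M.Loc j T (M.WZ (c • JJ j y)) := by
  refine fun y' hy' => M.W_WZ_commute ?_
  rw [inner_smul_right, JJ_orth j fun u => (em (u ∈ T)).symm.imp (hy' u) (hy u), mul_zero, zero_im]
theorem loc_WY {T : Set ℝ} {y : ℝ → K} (hy : ∀ u ∈ T, y u = 0) (c : ℂ) :
    M.Loc j T (M.WY (c • JJ j y)) := by
  refine fun y' hy' => M.W_WY_commute ?_
  rw [inner_smul_right, JJ_orth j fun u => (em (u ∈ T)).symm.imp (hy' u) (hy u), mul_zero, zero_im]
theorem Loc.commute {T : Set ℝ} {U : K →L[ℂ] K} (h : M.Loc j T U) {y : ℝ → K}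
    (hy : ∀ u ∉ T, y u = 0) (c : ℂ) : Commute (M.W (c • JJ j y)) U := by
  rw [← JJ_smul]
  exact h _ fun u hu => by rw [hy u hu, smul_zero]
/-- locality of increments composes. -/
theorem Loc.trans {T : Set ℝ} {U0 U1 U2 : K →L[ℂ] K} (h1 : U1 ∈ unitary (K →L[ℂ] K))
    (h : M.Loc j T (U1 * star U0)) (h' : M.Loc j T (U2 * star U1)) :
    M.Loc j T (U2 * star U0) := by
  have := h'.mul h
  rwa [mul_assoc, ← mul_assoc (star U1), h1.1, one_mul] at this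
theorem Loc.of_incr {T : Set ℝ} {U0 U1 : K →L[ℂ] K} (h0 : U0 ∈ unitary (K →L[ℂ] K))
    (h : M.Loc j T U0) (h' : M.Loc j T (U1 * star U0)) : M.Loc j T U1 := by
  have := h'.mul h
  rwa [mul_assoc, h0.1, mul_one] at this
theorem loc_incr_self {T : Set ℝ} {U : K →L[ℂ] K} (h0 : U ∈ unitary (K →L[ℂ] K)) :
    M.Loc j T (U * star U) := by
  rw [h0.2]
  exact loc_one T
theorem wclose_refl (T : K →L[ℂ] K) (Y : Finset K) {ε : ℝ} (hε : 0 ≤ ε) :
    M.Wclose f T T Y ε := by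
  exact ⟨1, one_mem _, Commute.one_right _, Commute.one_right _, M.sigComm_one, fun y _ => by simpa using hε⟩
theorem Wclose.trans {T T' T'' : K →L[ℂ] K} {Y : Finset K} {ε ε' : ℝ}
    (h : M.Wclose f T T' Y ε) (h' : M.Wclose f T' T'' Y ε') : M.Wclose f T T'' Y (ε + ε') := by
  obtain ⟨U, h1, h2, h3, h4, h5⟩ := h
  obtain ⟨U', h1', h2', h3', h4', h5'⟩ := h'
  refine ⟨U' * U, mul_mem h1' h1, h2'.mul_right h2, h3'.mul_right h3, h4'.mul M h4, fun y hy => ?_⟩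
  have h6 := norm_sub_le_norm_sub_add_norm_sub (T'' y) (U' (T' y)) (U' (U (T y)))
  rw [← map_sub U', unit_norm h1'] at h6
  exact h6.trans (by linarith [h5 y hy, h5' y hy])
theorem Wclose.mono {T T' : K →L[ℂ] K} {Y Y' : Finset K} {ε ε' : ℝ}
    (h : M.Wclose f T T' Y ε) (hY : Y' ⊆ Y) (hε : ε ≤ ε') : M.Wclose f T T' Y' ε' := by
  obtain ⟨U, h1, h2, h3, h4, h5⟩ := h
  exact ⟨U, h1, h2, h3, h4, fun y hy => (h5 y (hY hy)).trans hε⟩
theorem Wclose.psi {T T' : K →L[ℂ] K} {Y : Finset K} {ε : ℝ} (h : M.Wclose f T T' Y ε)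
    (hT : T ∈ unitary (K →L[ℂ] K)) (hT' : T' ∈ unitary (K →L[ℂ] K)) (h1 : M.Ω ∈ Y)
    (h2 : M.psi T ∈ Y) : ‖M.psi T' - M.psi T‖ ≤ 2 * ε := by
  obtain ⟨U, k1, k2, -, -, k5⟩ := h
  have := M.psi_close hT' (mul_mem k1 hT)
  rw [M.psi_mul_of_commute k1 k2] at this
  exact this.trans ((add_le_add (k5 _ h1) (k5 _ h2)).trans_eq (two_mul ε).symm)
theorem Near.mono {V : ℝ → K →L[ℂ] K} {X X' : Set ℝ} (h : M.Near η V X) (hX : X ⊆ X') :
    M.Near η V X' := by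
  exact fun u hu => h u ⟨hu.1, fun h' => hu.2 (hX h')⟩
theorem Inv.advance {V : ℝ → K →L[ℂ] K} {a a' : ℝ} (h : M.Inv j η f V a) (h1 : a ≤ a')
    (h2 : a' < 2 * η) : M.Inv j η f V a' := by
  exact ⟨h.good, h.seed, h.sig, fun u hu => h.fresh1 u ⟨h1.trans hu.1, hu.2⟩,
    fun u => (h.fresh2 u).mono (Set.Ico_subset_Ico_left h1), h.lo.trans h1, h2⟩
theorem inv_one (h0 : 0 < η) : M.Inv j η f (fun _ => 1) η := by
  exact ⟨.one, fun _ _ => Commute.one_right _, fun _ => M.sigComm_one, fun _ _ => rfl, fun _ => loc_one _, le_rfl,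
    by linarith⟩
theorem d2b_mu (h0 : 0 < η) (h1 : η ≤ 1 / 1000) {X : Set ℝ} (hX : Ctx η X) :
    mu0.real (X ∪ Set.Ico 0 (2 * η)) ≤ 1 / 100 := by
  have := measureReal_union_le (μ := mu0) X (Set.Ico 0 (2 * η))
  rw [mu0_Ico le_rfl (by linarith) (by linarith)] at this
  linarith [hX.2.2]
theorem d2b_rotS {S : Set ℝ} {θ : ℝ} {V : ℝ → K →L[ℂ] K} {u : ℝ} (h : u ∉ S) : M.rotS S θ V u = V u := by
  rw [rotS, Set.indicator_of_notMem h, M.RX_zero, one_mul]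
/-- `dev ≤ 1/100 + 4 (μ X + 2η)`. -/
theorem dev_le (h0 : 0 < η) (h1 : η ≤ 1 / 1000) {V : ℝ → K →L[ℂ] K} (hV : M.MGood j V)
    {X : Set ℝ} (hX : Ctx η X) (hN : M.Near η V X) : M.dev V ≤ 1 / 10 := by
  have hm : MeasurableSet (X ∪ Set.Ico 0 (2 * η)) := hX.1.union measurableSet_Ico
  have hi : Integrable ((X ∪ Set.Ico 0 (2 * η)).indicator fun _ => (4 : ℝ)) mu0 := (integrable_const _).indicator hm
  refine (integral_mono_of_nonneg (g := fun u => 1 / 100 + (X ∪ Set.Ico 0 (2 * η)).indicator (fun _ => (4 : ℝ)) u)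
    (.of_forall fun u => sq_nonneg _) ((integrable_const _).add hi) ?_).trans ?_
  · filter_upwards [ae_restrict_mem (μ := volume) (measurableSet_Ico (a := (0 : ℝ)) (b := 1))] with u hu
    by_cases h : u ∈ X ∪ Set.Ico 0 (2 * η)
    · have h2 := norm_sub_le (M.psi (V u)) (M.Z M.Ω)
      rw [M.norm_psi (hV.mem M u), unit_norm M.Z_mem, M.norm_Ω] at h2
      rw [Set.indicator_of_mem h]
      nlinarith [norm_nonneg (M.psi (V u) - M.Z M.Ω)]
    · have h2 := hN u ⟨⟨not_lt.1 fun h' => h (Or.inr ⟨hu.1, h'⟩), hu.2⟩, fun h' => h (Or.inl h')⟩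
      rw [Set.indicator_of_notMem h]
      nlinarith [norm_nonneg (M.psi (V u) - M.Z M.Ω)]
  · rw [integral_add (integrable_const _) hi, integral_indicator_const _ hm, integral_const, probReal_univ]
    simp only [smul_eq_mul]
    linarith [d2b_mu h0 h1 hX]
theorem rotS_good (h0 : 0 < η) (h1 : η ≤ 1 / 1000) {V : ℝ → K →L[ℂ] K} (hV : M.MGood j V)
    {X : Set ℝ} (hX : Ctx η X) (hN : M.Near η V X) {S : Set ℝ} (hS : MeasurableSet S)
    (hSX : S ⊆ X ∪ Set.Ico 0 (2 * η)) (θ : ℝ) :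
    M.MGood j (M.rotS S θ V) ∧ M.Near η (M.rotS S θ V) X := by
  refine ⟨.rot V S θ hV hS ((measureReal_mono hSX).trans (d2b_mu h0 h1 hX)) (dev_le h0 h1 hV hX hN), fun u hu => ?_⟩
  rw [d2b_rotS fun h => (hSX h).elim hu.2 fun h' => not_lt.2 hu.1.1 h'.2]
  exact hN u hu
theorem rotS_inv (h0 : 0 < η) (h1 : η ≤ 1 / 1000) {V : ℝ → K →L[ℂ] K} {a : ℝ}
    (hV : M.Inv j η f V a) {X : Set ℝ} (hX : Ctx η X) (hN : M.Near η V X) {S : Set ℝ}
    (hS : MeasurableSet S) (hSX : S ⊆ X ∪ Set.Ico η a) (θ : ℝ) :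
    M.Inv j η f (M.rotS S θ V) a := by
  have hn : ∀ u ∈ S, η ≤ u ∧ (u < a ∨ 2 * η ≤ u) := fun u hu => (hSX hu).elim
    (fun h => ⟨by linarith [(hX.2.1 h).1], Or.inr (hX.2.1 h).1⟩) fun h => ⟨h.1, Or.inl h.2⟩
  refine ⟨(rotS_good h0 h1 hV.good hX hN hS (hSX.trans (Set.union_subset_union_right _
    (Set.Ico_subset_Ico h0.le hV.hi.le))) θ).1, fun u hu => ?_, fun u => (M.sigComm_RX _).mul M (hV.sig u),
    fun u hu => ?_, fun u => (loc_RX _ _).mul (hV.fresh2 u), hV.lo, hV.hi⟩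
  · rw [d2b_rotS fun h => not_lt.2 (hn u h).1 hu.2]
    exact hV.seed u hu
  · rw [d2b_rotS fun h => (hn u h).2.elim (not_lt.2 hu.1) (not_le.2 hu.2)]
    exact hV.fresh1 u hu

end Model
end Crest.Agent.R339
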