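import Crest.Agent.R339.D2.Basic

/-! # Row 339, block D2: bipartite gates (statements frozen) -/

set_option autoImplicit false
open MeasureTheory ProbabilityTheory Filter Topology Complex
open Crest.MathPhysics.SpinGlass

namespace Crest.Agent.R339
variable {E K : Type} [NormedAddCommGroup E] [InnerProductSpace ℂ E]
  [NormedAddCommGroup K] [InnerProductSpace ℂ K] [CompleteSpace K]
namespace Model
variable {M : Model E K} {j : Lp K 2 mu0 →ₗᵢ[ℂ] E} {η : ℝ} {P : ℕ → List (ℝ × (ℕ → ℝ))}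
  {f : Set ℝ → ℕ → E}

theorem bp_psi_WZ (g : E) (U : K →L[ℂ] K) : M.psi (M.WZ g * U) = M.psi U :=
  M.psi_mul_of_commute (M.WZ_mem g) (M.Z_WZ g) U

theorem psi_bip (A B : Set ℝ) (γ : ℝ) (V : ℝ → K →L[ℂ] K) (u : ℝ) :
    M.psi (M.bip j A B γ V u) = M.psi (V u) := by
  unfold bip
  split_ifs
  · exact bp_psi_WZ _ _
  · exact bp_psi_WZ _ _
  · rfl
open Classical in
/-- `χ_S = 1 - 2·1_S`. -/
noncomputable def bp_chi (S : Set ℝ) (u : ℝ) : ℝ := if u ∈ S then -1 else 1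

theorem bp_chi_mem {S : Set ℝ} {u : ℝ} (h : u ∈ S) : bp_chi S u = -1 := if_pos h
theorem bp_chi_not {S : Set ℝ} {u : ℝ} (h : u ∉ S) : bp_chi S u = 1 := if_neg h

/-- the cost gate conjugated by the flips on `S`. -/
noncomputable def bp_gate (M : Model E K) (j : Lp K 2 mu0 →ₗᵢ[ℂ] E) (S : Set ℝ) (s : ℝ)
    (V : ℝ → K →L[ℂ] K) : ℝ → K →L[ℂ] K := fun u =>
  M.WZ (((s * bp_chi S u : ℝ) : ℂ) • JJ j (fun u' => ((bp_chi S u' : ℝ) : ℂ) • M.psiL V u')) * V u

theorem bp_gate_apply (S : Set ℝ) (s : ℝ) (V : ℝ → K →L[ℂ] K) (u : ℝ) : bp_gate M j S s V u =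
    M.WZ (((s * bp_chi S u : ℝ) : ℂ) • JJ j (fun u' => ((bp_chi S u' : ℝ) : ℂ) • M.psiL V u')) *
      V u := rfl

theorem bp_psiL_gate (S : Set ℝ) (s : ℝ) (V : ℝ → K →L[ℂ] K) :
    M.psiL (bp_gate M j S s V) = M.psiL V :=
  funext fun _ => bp_psi_WZ _ _

theorem bp_near_gate {S : Set ℝ} {s : ℝ} {V : ℝ → K →L[ℂ] K} {X : Set ℝ} (hN : M.Near η V X) :
    M.Near η (bp_gate M j S s V) X := fun u hu => by
  rw [show M.psi (bp_gate M j S s V u) = M.psi (V u) from bp_psi_WZ _ _]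
  exact hN u hu

theorem bp_gate_eq (S : Set ℝ) (s : ℝ) (V : ℝ → K →L[ℂ] K) :
    M.rotS S (-(Real.pi / 2)) (M.costL j s (M.rotS S (Real.pi / 2) V)) = bp_gate M j S s V := by
  have hψ : M.psiL (M.rotS S (Real.pi / 2) V) =
      fun u' => ((bp_chi S u' : ℝ) : ℂ) • M.psiL V u' := by
    funext u
    by_cases hu : u ∈ S
    · simp only [psiL, rotS, Set.indicator_of_mem hu, bp_chi_mem hu, M.RX_pi_div_two]
      rw [M.psi_X_mul _ (by simp)]
      simp
    · simp [psiL, rotS, Set.indicator_of_notMem hu, bp_chi_not hu, M.RX_zero]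
  funext u
  change M.RX (S.indicator (fun _ => -(Real.pi / 2)) u) *
      (M.WZ (((s : ℝ) : ℂ) • JJ j (M.psiL (M.rotS S (Real.pi / 2) V))) *
        (M.RX (S.indicator (fun _ => Real.pi / 2) u) * V u)) =
    M.WZ (((s * bp_chi S u : ℝ) : ℂ) • JJ j (fun u' => ((bp_chi S u' : ℝ) : ℂ) • M.psiL V u')) * V u
  rw [hψ]
  set G := JJ j (fun u' => ((bp_chi S u' : ℝ) : ℂ) • M.psiL V u')
  by_cases hu : u ∈ S
  · simp only [Set.indicator_of_mem hu, bp_chi_mem hu, M.RX_pi_div_two,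
      M.RX_neg_pi_div_two]
    rw [← mul_assoc, ← mul_assoc]
    congr 1
    rw [smul_mul_assoc, smul_mul_smul_comm, M.X_WZ, mul_assoc, M.X_X, mul_one, mul_neg, I_mul_I,
      neg_neg, one_smul, mul_neg_one, ofReal_neg, neg_smul]
  · simp [Set.indicator_of_notMem hu, bp_chi_not hu, M.RX_zero]

theorem bp_gate_good (h0 : 0 < η) (h1 : η ≤ 1 / 1000) {V : ℝ → K →L[ℂ] K} (hV : M.MGood j V)
    {X : Set ℝ} (hX : Ctx η X) (hN : M.Near η V X) {S : Set ℝ} (hS : MeasurableSet S)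
    (hSX : S ⊆ X ∪ Set.Ico 0 (2 * η)) (s : ℝ) : M.MGood j (bp_gate M j S s V) := by
  obtain ⟨g1, n1⟩ := rotS_good h0 h1 hV hX hN hS hSX (Real.pi / 2)
  have g2 := MGood.cost _ s g1
  have n2 : M.Near η (M.costL j s (M.rotS S (Real.pi / 2) V)) X := fun u hu => by
    rw [show M.psi (M.costL j s (M.rotS S (Real.pi / 2) V) u) =
      M.psi (M.rotS S (Real.pi / 2) V u) from bp_psi_WZ _ _]
    exact n1 u hu
  rw [← bp_gate_eq]
  exact (rotS_good h0 h1 g2 hX n2 hS hSX _).1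

/-- real combinations of three vectors. -/
noncomputable def bp_comb (a b c : E) (x y z : ℝ) : E :=
  ((x : ℝ) : ℂ) • a + ((y : ℝ) : ℂ) • b + ((z : ℝ) : ℂ) • c

theorem bp_comb_smul (a b c : E) (s x y z : ℝ) :
    ((s : ℝ) : ℂ) • bp_comb a b c x y z = bp_comb a b c (s * x) (s * y) (s * z) := by
  simp only [bp_comb, smul_add, smul_smul, ofReal_mul]

theorem bp_WZ_comb {a b c : E} (hab : inner ℂ a b = 0) (hac : inner ℂ a c = 0)
    (hbc : inner ℂ b c = 0) (x y z x' y' z' : ℝ) :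
    M.WZ (bp_comb a b c x y z) * M.WZ (bp_comb a b c x' y' z') =
      M.WZ (bp_comb a b c (x + x') (y + y') (z + z')) := by
  have hba : inner ℂ b a = 0 := by rw [← inner_conj_symm, hab, map_zero]
  have hca : inner ℂ c a = 0 := by rw [← inner_conj_symm, hac, map_zero]
  have hcb : inner ℂ c b = 0 := by rw [← inner_conj_symm, hbc, map_zero]
  have him : (inner ℂ (bp_comb a b c x y z) (bp_comb a b c x' y' z')).im = 0 := by
    simp only [bp_comb, inner_add_left, inner_add_right, inner_smul_left, inner_smul_right, hab, hac,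
      hbc, hba, hca, hcb, mul_zero, add_zero, zero_add, conj_ofReal, inner_self_eq_norm_sq_to_K]
    simp [← ofReal_pow]
  rw [M.WZ_mul, him]
  simp only [ofReal_zero, mul_zero, neg_zero, Complex.exp_zero, one_smul]
  congr 1
  simp only [bp_comb, ofReal_add, add_smul]
  abel

theorem bp_JJ_dec {ψ : ℝ → K} (hψ : Simple ψ) {A B : Set ℝ} (hA : MeasurableSet A)
    (hB : MeasurableSet B) (hAB : Disjoint A B) (χ : ℝ → ℝ) {x y z : ℝ} (hx : ∀ u ∈ A, χ u = x)
    (hy : ∀ u ∈ B, χ u = y) (hz : ∀ u, u ∉ A → u ∉ B → χ u = z) :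
    JJ j (fun u => ((χ u : ℝ) : ℂ) • ψ u) = bp_comb (JJ j (A.indicator ψ)) (JJ j (B.indicator ψ))
      (JJ j ((A ∪ B)ᶜ.indicator ψ)) x y z := by
  have m1 : MemLp (fun u => ((x : ℝ) : ℂ) • A.indicator ψ u) 2 mu0 :=
    ((hψ.indicator hA).comp fun v => ((x : ℝ) : ℂ) • v).memLp mu0
  have m2 : MemLp (fun u => ((y : ℝ) : ℂ) • B.indicator ψ u) 2 mu0 :=
    ((hψ.indicator hB).comp fun v => ((y : ℝ) : ℂ) • v).memLp mu0
  have m3 : MemLp (fun u => ((z : ℝ) : ℂ) • (A ∪ B)ᶜ.indicator ψ u) 2 mu0 :=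
    ((hψ.indicator (hA.union hB).compl).comp fun v => ((z : ℝ) : ℂ) • v).memLp mu0
  have m12 : MemLp (fun u => ((x : ℝ) : ℂ) • A.indicator ψ u + ((y : ℝ) : ℂ) • B.indicator ψ u) 2
      mu0 := m1.add m2
  rw [bp_comb, ← JJ_smul, ← JJ_smul, ← JJ_smul, ← JJ_add j m1 m2, ← JJ_add j m12 m3]
  congr 1
  funext u
  by_cases hA' : u ∈ A
  · have hB' : u ∉ B := Set.disjoint_left.1 hAB hA'
    simp [Set.indicator, hA', hB', hx u hA']
  · by_cases hB' : u ∈ B
    · simp [Set.indicator, hA', hB', hy u hB']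
    · simp [Set.indicator, hA', hB', hz u hA' hB']

/-- four cost gates `γ/4, -γ/4, -γ/4, γ/4` conjugated by the flips `RX (±π/2)` on
`∅, A, B, A ∪ B`: with `χ_S = 1 - 2·1_S` the gate conjugated on `S` multiplies `V u` by
`WZ (s χ_S(u) JJ (χ_S ψ))`; the directions `JJ (χ_S ψ)` have real inner products, and
`1 - χ_Aχ_A' - χ_Bχ_B' + χ_{A∪B}χ_{A∪B}' = (1 - χ_Aχ_A')(1 - χ_Bχ_B')`. -/
theorem bip_good (h0 : 0 < η) (h1 : η ≤ 1 / 1000) {V : ℝ → K →L[ℂ] K} (hV : M.MGood j V)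
    {X : Set ℝ} (hX : Ctx η X) (hN : M.Near η V X) {A B : Set ℝ} (hA : MeasurableSet A)
    (hB : MeasurableSet B) (hAB : Disjoint A B) (hAX : A ⊆ X ∪ Set.Ico 0 (2 * η))
    (hBX : B ⊆ X ∪ Set.Ico 0 (2 * η)) (γ : ℝ) : M.MGood j (M.bip j A B γ V) := by
  have g1 := bp_gate_good h0 h1 hV hX hN MeasurableSet.empty (Set.empty_subset _) (γ / 4)
  have n1 := bp_near_gate (j := j) (S := ∅) (s := γ / 4) hN
  have g2 := bp_gate_good h0 h1 g1 hX n1 hA hAX (-(γ / 4))
  have n2 := bp_near_gate (j := j) (S := A) (s := -(γ / 4)) n1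
  have g3 := bp_gate_good h0 h1 g2 hX n2 hB hBX (-(γ / 4))
  have n3 := bp_near_gate (j := j) (S := B) (s := -(γ / 4)) n2
  have g4 := bp_gate_good h0 h1 g3 hX n3 (hA.union hB) (Set.union_subset hAX hBX) (γ / 4)
  have hψ : Simple (M.psiL V) := (MGood.simple M hV).comp M.psi
  have dAB : ∀ u ∈ A, u ∉ B := fun u hu => Set.disjoint_left.1 hAB hu
  have dBA : ∀ u ∈ B, u ∉ A := fun u hu => Set.disjoint_right.1 hAB hu
  have e1 := bp_JJ_dec (j := j) hψ hA hB hAB (bp_chi ∅) (x := 1) (y := 1) (z := 1)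
    (fun u _ => bp_chi_not (Set.notMem_empty u)) (fun u _ => bp_chi_not (Set.notMem_empty u))
    (fun u _ _ => bp_chi_not (Set.notMem_empty u))
  have e2 := bp_JJ_dec (j := j) hψ hA hB hAB (bp_chi A) (x := -1) (y := 1) (z := 1)
    (fun u hu => bp_chi_mem hu) (fun u hu => bp_chi_not (dBA u hu)) (fun u hu _ => bp_chi_not hu)
  have e3 := bp_JJ_dec (j := j) hψ hA hB hAB (bp_chi B) (x := 1) (y := -1) (z := 1)
    (fun u hu => bp_chi_not (dAB u hu)) (fun u hu => bp_chi_mem hu) (fun u _ hu => bp_chi_not hu)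
  have e4 := bp_JJ_dec (j := j) hψ hA hB hAB (bp_chi (A ∪ B)) (x := -1) (y := -1) (z := 1)
    (fun u hu => bp_chi_mem (Or.inl hu)) (fun u hu => bp_chi_mem (Or.inr hu))
    (fun u hu hu' => bp_chi_not fun h => h.elim hu hu')
  have hab : inner ℂ (JJ j (A.indicator (M.psiL V))) (JJ j (B.indicator (M.psiL V))) = 0 :=
    JJ_orth j fun u => by
      by_cases hu : u ∈ A
      · exact Or.inr (Set.indicator_of_notMem (dAB u hu) _)
      · exact Or.inl (Set.indicator_of_notMem hu _)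
  have hac : inner ℂ (JJ j (A.indicator (M.psiL V))) (JJ j ((A ∪ B)ᶜ.indicator (M.psiL V))) = 0 :=
    JJ_orth j fun u => by
      by_cases hu : u ∈ A
      · exact Or.inr (Set.indicator_of_notMem (fun h : u ∈ (A ∪ B)ᶜ => h (Or.inl hu)) _)
      · exact Or.inl (Set.indicator_of_notMem hu _)
  have hbc : inner ℂ (JJ j (B.indicator (M.psiL V))) (JJ j ((A ∪ B)ᶜ.indicator (M.psiL V))) = 0 :=
    JJ_orth j fun u => by
      by_cases hu : u ∈ B
      · exact Or.inr (Set.indicator_of_notMem (fun h : u ∈ (A ∪ B)ᶜ => h (Or.inr hu)) _)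
      · exact Or.inl (Set.indicator_of_notMem hu _)
  convert g4 using 1
  funext u
  rw [bp_gate_apply, bp_gate_apply, bp_gate_apply, bp_gate_apply]
  simp only [bp_psiL_gate]
  rw [e1, e2, e3, e4]
  simp only [bp_comb_smul, ← mul_assoc, bp_WZ_comb hab hac hbc]
  unfold bip
  have h0' : bp_chi ∅ u = 1 := bp_chi_not (Set.notMem_empty u)
  split_ifs with hA' hB'
  · rw [h0', bp_chi_mem hA', bp_chi_not (dAB u hA'), bp_chi_mem (S := A ∪ B) (Or.inl hA')]
    congr 2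
    simp only [bp_comb]
    match_scalars <;> ring
  · rw [h0', bp_chi_not hA', bp_chi_mem hB', bp_chi_mem (S := A ∪ B) (Or.inr hB')]
    congr 2
    simp only [bp_comb]
    match_scalars <;> ring
  · rw [h0', bp_chi_not hA', bp_chi_not hB', bp_chi_not (S := A ∪ B) fun h => h.elim hA' hB']
    conv_lhs => rw [← one_mul (V u), ← M.WZ_zero]
    congr 2
    simp only [bp_comb]
    match_scalars <;> ring
theorem bip_inv (hf : M.IsSig j η P f) (h0 : 0 < η) (h1 : η ≤ 1 / 1000) {V : ℝ → K →L[ℂ] K}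
    {a : ℝ} (hV : M.Inv j η f V a) {X : Set ℝ} (hX : Ctx η X) (hN : M.Near η V X) {A B : Set ℝ}
    (hA : MeasurableSet A) (hB : MeasurableSet B) (hAB : Disjoint A B)
    (hAX : A ⊆ X ∪ Set.Ico 0 a) (hBX : B ⊆ X ∪ Set.Ico 0 a) (γ : ℝ) :
    M.Inv j η f (M.bip j A B γ V) a ∧ M.Near η (M.bip j A B γ V) X := by
  have hsub : X ∪ Set.Ico 0 a ⊆ X ∪ Set.Ico 0 (2 * η) :=
    Set.union_subset_union_right _ (Set.Ico_subset_Ico_right hV.hi.le)
  have hfr : ∀ u ∈ Set.Ico a (2 * η), u ∉ X ∪ Set.Ico 0 a := by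
    rintro u hu (h | h)
    · exact absurd (hX.2.1 h).1 (not_le.2 hu.2)
    · exact absurd hu.1 (not_le.2 h.2)
  have hsig : ∀ S : Set ℝ, MeasurableSet S →
      M.SigComm f (M.WZ (((γ : ℝ) : ℂ) • JJ j (S.indicator (M.psiL V)))) := fun S hS =>
    M.sigComm_WZ fun X' q hX' => by
      rw [inner_smul_right, im_ofReal_mul]
      refine mul_eq_zero_of_right _ ?_
      exact M.sig_im_psi hf h0 (MGood.simple M hV.good) (MGood.mem M hV.good) hV.sig hV.seed hS hX' q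
  refine ⟨⟨bip_good h0 h1 hV.good hX hN hA hB hAB (hAX.trans hsub) (hBX.trans hsub) γ,
    fun u hu => ?_, fun u => ?_, fun u hu => ?_, fun u => ?_, hV.lo, hV.hi⟩, fun u hu => ?_⟩
  · unfold bip
    split_ifs
    · exact (M.Z_WZ _).mul_right (hV.seed u hu)
    · exact (M.Z_WZ _).mul_right (hV.seed u hu)
    · exact hV.seed u hu
  · unfold bip
    split_ifs
    · exact SigComm.mul M (hsig B hB) (hV.sig u)
    · exact SigComm.mul M (hsig A hA) (hV.sig u)
    · exact hV.sig u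
  · unfold bip
    rw [if_neg fun h => hfr u hu (hAX h), if_neg fun h => hfr u hu (hBX h)]
    exact hV.fresh1 u hu
  · unfold bip
    split_ifs
    · exact Loc.mul (loc_WZ (fun v hv => Set.indicator_of_notMem (fun h => hfr v hv (hBX h)) _) _)
        (hV.fresh2 u)
    · exact Loc.mul (loc_WZ (fun v hv => Set.indicator_of_notMem (fun h => hfr v hv (hAX h)) _) _)
        (hV.fresh2 u)
    · exact hV.fresh2 u
  · rw [psi_bip]
    exact hN u hu
/-- level 0: `bip A (Sd η) (γ / √η)`. -/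
theorem readOK_zero (hf : M.IsSig j η P f) (h0 : 0 < η) (h1 : η ≤ 1 / 1000) :
    M.ReadOK j η f 0 := by
  intro V a X A γ Y ε hV hX hN hA hAX hε
  have hS : MeasurableSet (Sd η) := measurableSet_Ico
  have hXS : ∀ u ∈ X, u ∉ Sd η := fun u hu h => by
    have h2 := (hX.2.1 hu).1
    have h3 := h.2
    linarith
  have hTA : ∀ u ∈ (X \ A) ∪ Set.Ico η a, u ∉ A := by
    rintro u (hu | hu) h
    · exact hu.2 h
    · have h2 := (hX.2.1 (hAX h)).1
      have h3 := hu.2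
      have h4 := hV.hi
      linarith
  have hTS : ∀ u ∈ (X \ A) ∪ Set.Ico η a, u ∉ Sd η := by
    rintro u (hu | hu) h
    · exact hXS u hu.1 h
    · exact absurd hu.1 (not_le.2 h.2)
  have hd : Disjoint A (Sd η) := Set.disjoint_left.2 fun u hu => hXS u (hAX hu)
  obtain ⟨hI, hN'⟩ := bip_inv hf h0 h1 hV hX hN hA hS hd (hAX.trans Set.subset_union_left)
    (fun u hu => Or.inr ⟨hu.1, hu.2.trans_le hV.lo⟩) (γ * (Real.sqrt η)⁻¹)
  have hU := MGood.mem M hV.good
  refine ⟨_, a, le_rfl, hI, hN', ⟨((γ : ℝ) : ℂ) • f X 0, 1, norm_one, by simpa using hε.le,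
    fun u hu => ?_⟩, fun u hu => ?_, fun u hu => ?_, fun u => ?_⟩
  · have h2 : (Sd η).indicator (M.psiL V) = (Sd η).indicator fun _ => M.Z M.Ω :=
      Set.indicator_congr fun v hv => M.psi_of_commute (hU v) (hV.seed v hv)
    unfold bip
    rw [if_pos hu, one_smul, (hf X).1, h2, smul_smul, ofReal_mul]
  · unfold bip
    rw [if_neg (hTA u hu), if_neg (hTS u hu)]
  · have h2 : u ∉ Sd η := fun h => by
      have h2 := hu.1.1
      have h3 := h.2
      linarith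
    unfold bip
    rw [if_neg fun h => hu.2 (hAX h), if_neg h2]
    exact wclose_refl _ _ hε.le
  · unfold bip
    split_ifs
    · rw [mul_assoc, Unitary.mul_star_self_of_mem (hU u), mul_one]
      exact loc_WZ (fun v hv => Set.indicator_of_notMem (hTS v hv) _) _
    · rw [mul_assoc, Unitary.mul_star_self_of_mem (hU u), mul_one]
      exact loc_WZ (fun v hv => Set.indicator_of_notMem (hTA v hv) _) _
    · exact loc_incr_self (hU u)

end Model
end Crest.Agent.R339
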