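import Crest.Agent.R339.ApiL

/-! # Row 339, block D2: definitions and statements (see notes339/route.md) -/

set_option autoImplicit false
open MeasureTheory ProbabilityTheory Filter Topology Complex
open Crest.MathPhysics.SpinGlass

namespace Crest.Agent.R339
variable {E K : Type} [NormedAddCommGroup E] [InnerProductSpace ℂ E]
  [NormedAddCommGroup K] [InnerProductSpace ℂ K] [CompleteSpace K]

/-- instructions executed by one class: a mixer, or a `Z`-phase by the field number `i`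
(`inl i`: signal `i`; `inr false`: mediators; `inr true`: receivers). -/
inductive Ins
  | rot (θ : ℝ)
  | rd (i : ℕ ⊕ Bool) (γ : ℝ)

namespace Model
variable (M : Model E K)

noncomputable def insOp (g : ℕ ⊕ Bool → E) : Ins → K →L[ℂ] K
  | .rot θ => M.RX θ
  | .rd i γ => M.WZ (((γ : ℝ) : ℂ) • g i)

open Classical in
noncomputable def _root_.Crest.Agent.R339.insC (b : ℕ ⊕ Bool) : Ins → ℝ
  | .rot _ => 0
  | .rd i γ => if i = b then γ else 0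

/-- ideal unitary of a program (head of the list = first in time). -/
noncomputable def progU (g : ℕ ⊕ Bool → E) : List Ins → K →L[ℂ] K
  | [] => 1
  | ι :: p => progU g p * M.insOp g ι

/-- aggregated back-action `Σ γ U_prefix* Z U_prefix` over the reads of the field `b`. -/
noncomputable def progL (g : ℕ ⊕ Bool → E) (b : ℕ ⊕ Bool) : List Ins → K →L[ℂ] K
  | [] => 0
  | ι :: p => ((insC b ι : ℝ) : ℂ) • M.Z + star (M.insOp g ι) * progL g b p * M.insOp g ι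

/-- all reads of the program are in `s`. -/
def _root_.Crest.Agent.R339.ProgIn (s : Set (ℕ ⊕ Bool)) (p : List Ins) : Prop :=
  ∀ i γ, Ins.rd i γ ∈ p → i ∈ s

noncomputable def _root_.Crest.Agent.R339.dirOf (s : Finset (ℕ ⊕ Bool)) (g : ℕ ⊕ Bool → E)
    (a : ℕ ⊕ Bool → ℝ) : E := ∑ i ∈ s, ((a i : ℝ) : ℂ) • g i

/-- `F = Σ c sin (a · Φ)`. -/
noncomputable def trF (s : Finset (ℕ ⊕ Bool)) (g : ℕ ⊕ Bool → E)
    (T : List (ℝ × (ℕ ⊕ Bool → ℝ))) : K →L[ℂ] K :=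
  (T.map fun t => ((t.1 : ℝ) : ℂ) • M.sinW (dirOf s g t.2)).sum

/-- `∂_b F = Σ c a_b cos (a · Φ)`. -/
noncomputable def trD (s : Finset (ℕ ⊕ Bool)) (g : ℕ ⊕ Bool → E)
    (T : List (ℝ × (ℕ ⊕ Bool → ℝ))) (b : ℕ ⊕ Bool) : K →L[ℂ] K :=
  (T.map fun t => ((t.1 * t.2 b : ℝ) : ℂ) • M.cosW (dirOf s g t.2)).sum

def S_TROT : Prop :=
  ∀ (s : Finset (ℕ ⊕ Bool)) (T : List (ℝ × (ℕ ⊕ Bool → ℝ))), ∀ δ > (0 : ℝ), ∃ p : List Ins,
    ProgIn (↑s) p ∧ ∀ g : ℕ ⊕ Bool → E, (∀ i ∈ s, ∀ i' ∈ s, (inner ℂ (g i) (g i')).im = 0) →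
      ‖M.progU g p - eI (M.Z * M.trF s g T)‖ ≤ δ ∧
      ∀ b ∈ s, ‖M.progL g b p - M.Z * M.trD s g T b‖ ≤ δ

variable (j : Lp K 2 mu0 →ₗᵢ[ℂ] E) (η : ℝ) (f : Set ℝ → ℕ → E)

/-- `U` commutes with the Weyl operators of all directions supported on `T`. -/
def Loc (T : Set ℝ) (U : K →L[ℂ] K) : Prop :=
  ∀ y : ℝ → K, (∀ u ∉ T, y u = 0) → Commute (M.W (JJ j y)) U

/-- exact invariants; labels in `[a, 2η)` are fresh. -/
structure Inv (V : ℝ → K →L[ℂ] K) (a : ℝ) : Prop where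
  good : M.MGood j V
  seed : ∀ u ∈ Sd η, Commute M.Z (V u)
  sig : ∀ u, M.SigComm f (V u)
  fresh1 : ∀ u ∈ Set.Ico a (2 * η), V u = 1
  fresh2 : ∀ u, M.Loc j (Set.Ico a (2 * η)) (V u)
  lo : η ≤ a
  hi : a < 2 * η

def Near (V : ℝ → K →L[ℂ] K) (X : Set ℝ) : Prop :=
  ∀ u ∈ Dt η \ X, ‖M.psi (V u) - M.Z M.Ω‖ < 1 / 10

def _root_.Crest.Agent.R339.Ctx (η : ℝ) (X : Set ℝ) : Prop :=
  MeasurableSet X ∧ X ⊆ Dt η ∧ mu0.real X < 1 / 200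

/-- `T'` is `T` followed by a unitary acting trivially on the spin and on the signals,
up to `ε` on `Y`. -/
def Wclose (T T' : K →L[ℂ] K) (Y : Finset K) (ε : ℝ) : Prop :=
  ∃ Wu ∈ unitary (K →L[ℂ] K), Commute M.Z Wu ∧ Commute M.X Wu ∧ M.SigComm f Wu ∧
    ∀ y ∈ Y, ‖T' y - Wu (T y)‖ ≤ ε

/-- the class `A ⊆ X` reads the signal `f X q`. -/
def ReadOK (q : ℕ) : Prop :=
  ∀ (V : ℝ → K →L[ℂ] K) (a : ℝ) (X A : Set ℝ) (γ : ℝ) (Y : Finset K) (ε : ℝ),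
    M.Inv j η f V a → Ctx η X → M.Near η V X → MeasurableSet A → A ⊆ X → 0 < ε →
    ∃ V' a', a ≤ a' ∧ M.Inv j η f V' a' ∧ M.Near η V' X ∧
      (∃ (g' : E) (θ : ℂ), ‖θ‖ = 1 ∧ ‖g' - ((γ : ℝ) : ℂ) • f X q‖ ≤ ε ∧
        ∀ u ∈ A, V' u = θ • (M.WZ g' * V u)) ∧
      (∀ u ∈ (X \ A) ∪ Set.Ico η a, V' u = V u) ∧
      (∀ u ∈ Dt η \ X, M.Wclose f (V u) (V' u) Y ε) ∧
      (∀ u, M.Loc j ((X \ A) ∪ Set.Ico η a) (V' u * star (V u)))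

open Classical in
/-- exact bipartite cost gate between the classes `A` and `B`. -/
noncomputable def bip (A B : Set ℝ) (γ : ℝ) (V : ℝ → K →L[ℂ] K) : ℝ → K →L[ℂ] K := fun u =>
  if u ∈ A then M.WZ (((γ : ℝ) : ℂ) • JJ j (B.indicator (M.psiL V))) * V u
  else if u ∈ B then M.WZ (((γ : ℝ) : ℂ) • JJ j (A.indicator (M.psiL V))) * V u
  else V u

/-- the fields read by the class `B` in the context `X`, partners `A false`, `A true`. -/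
noncomputable def progDir (X B : Set ℝ) (A : Bool → Set ℝ) (V : ℝ → K →L[ℂ] K) : ℕ ⊕ Bool → E
  | .inl i => f (X ∪ B) i
  | .inr b => JJ j ((A b).indicator (M.psiL V))

/-- execution of a program by the class `B`. -/
def ProgOK (q : ℕ) : Prop :=
  ∀ (p : List Ins) (V : ℝ → K →L[ℂ] K) (a : ℝ) (X B : Set ℝ) (A : Bool → Set ℝ) (Y : Finset K)
    (ε : ℝ), ProgIn {i | ∀ n, i = Sum.inl n → n ≤ q} p →
    M.Inv j η f V a → Ctx η (X ∪ B) → MeasurableSet X → MeasurableSet B → Disjoint X B →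
    M.Near η V (X ∪ B) → (∀ b, MeasurableSet (A b)) → A false ⊆ Set.Ico η a → A true ⊆ X →
    0 < ε →
    ∃ V' a', a ≤ a' ∧ M.Inv j η f V' a' ∧ M.Near η V' (X ∪ B) ∧
      (∃ θ : ℂ, ‖θ‖ = 1 ∧ ∀ u ∈ B, ∀ y ∈ Y,
        ‖V' u y - θ • M.progU (M.progDir j f X B A V) p (V u y)‖ ≤ ε) ∧
      (∀ b, ∃ (θ : ℂ) (y' : ℝ → K), ‖θ‖ = 1 ∧ MemLp y' 2 mu0 ∧ (∀ u ∉ B, y' u = 0) ∧
        ‖JJ j y' - JJ j (B.indicator fun u => star (V u)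
          (M.progL (M.progDir j f X B A V) (Sum.inr b) p (V u M.Ω)))‖ ≤ ε ∧
        ∀ u ∈ A b, V' u = θ • (M.WZ (JJ j y') * V u)) ∧
      (∀ u ∈ (X \ A true) ∪ (Set.Ico η a \ A false), V' u = V u) ∧
      (∀ u ∈ Dt η \ (X ∪ B), M.Wclose f (V u) (V' u) Y ε) ∧
      (∀ u ∉ B, M.Loc j (X ∪ Set.Ico η a) (V' u * star (V u))) ∧
      (∀ u, M.Loc j ((X \ A true) ∪ (Set.Ico η a \ A false)) (V' u * star (V u)))

/-- one sender class `B` sends the message `P q` to `A` with the help of the mediators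
`[a, a1)`. -/
def SubOK (P : ℕ → List (ℝ × (ℕ → ℝ))) (q : ℕ) : Prop :=
  ∀ (γ τ e0 : ℝ), 0 < τ → 0 < e0 → ∃ C : ℝ, 0 ≤ C ∧
    ∀ (V : ℝ → K →L[ℂ] K) (a a1 a2 : ℝ) (X A B : Set ℝ) (T : K →L[ℂ] K) (θ0 : ℂ) (Y : Finset K)
      (ε0 ε1 ε : ℝ),
      M.Inv j η f V a2 → η ≤ a → a1 = a + e0 → a1 ≤ a2 →
      Ctx η (X ∪ B) → MeasurableSet X → MeasurableSet B → Disjoint X B → 0 < mu0.real B →
      M.Near η V (X ∪ B) → MeasurableSet A → A ⊆ X →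
      (∀ u ∈ Set.Ico a a1, V u = T) → M.Loc j B T → ‖θ0‖ = 1 → ‖T M.Ω - θ0 • M.Ω‖ ≤ 1 / 20 →
      (∀ u ∈ B, M.Loc j (Set.Ico a a1) (V u)) →
      (∀ y ∈ Y, ∀ h : E, ‖h‖ ≤ C * Real.sqrt (mu0.real B) → ‖M.W h y - y‖ ≤ ε0) →
      (∀ u ∈ B, ‖M.W (((τ : ℝ) : ℂ) • JJ j (A.indicator (M.psiL V))) (V u M.Ω) - V u M.Ω‖ ≤ ε1) →
      0 < ε →
      ∃ V' a', a2 ≤ a' ∧ M.Inv j η f V' a' ∧ M.Near η V' (X ∪ B) ∧
        (∀ u ∈ B, M.Wclose f (V u) (V' u) Y (C * ε0 + ε)) ∧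
        (∃ (θ : ℂ) (y' : ℝ → K), ‖θ‖ = 1 ∧ MemLp y' 2 mu0 ∧ (∀ u ∉ B, y' u = 0) ∧
          ‖JJ j y' - ((γ : ℝ) : ℂ) •
              JJ j (B.indicator fun _ => M.opS (P q) q (f (X ∪ B)) M.Ω)‖ ≤
            Real.sqrt (mu0.real B) * (C * Real.sqrt (mu0.real B) + |γ| * l1 (P q) * ε1) + ε ∧
          ∀ u ∈ A, V' u = θ • (M.WZ (JJ j y') * V u)) ∧
        (∃ (T' : K →L[ℂ] K) (θ : ℂ), (∀ u ∈ Set.Ico a a1, V' u = T') ∧ ‖θ‖ = 1 ∧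
          ‖T' M.Ω - θ • T M.Ω‖ ≤ C * (mu0.real B * Real.sqrt (mu0.real B)) + ε ∧
          M.Loc j Bᶜ (T' * star T)) ∧
        (∀ u ∈ (X \ A) ∪ Set.Ico η a, V' u = V u) ∧
        (∀ u ∈ Dt η \ (X ∪ B), M.Wclose f (V u) (V' u) Y ε) ∧
        (∀ u ∈ Dt η \ (X ∪ B), M.Loc j (X ∪ Set.Ico η a1) (V' u * star (V u))) ∧
        (∀ u, M.Loc j ((X \ A) ∪ Set.Ico η a) (V' u * star (V u)))

end Model
end Crest.Agent.R339
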