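import Crest.Agent.R339.D2.Bip

/-! # Row 339, block D2: a full send -/

set_option autoImplicit false
open MeasureTheory ProbabilityTheory Filter Topology Complex
open Crest.MathPhysics.SpinGlass

namespace Crest.Agent.R339
variable {E K : Type} [NormedAddCommGroup E] [InnerProductSpace ℂ E]
  [NormedAddCommGroup K] [InnerProductSpace ℂ K] [CompleteSpace K]
namespace Model
variable {M : Model E K} {j : Lp K 2 mu0 →ₗᵢ[ℂ] E} {η : ℝ} {P : ℕ → List (ℝ × (ℕ → ℝ))}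
  {f : Set ℝ → ℕ → E}

/-- strong continuity of `W` at `0`, uniformly on a finite set -/
theorem mac_unif (S : Set K) (hS : S.Finite) {ε : ℝ} (hε : 0 < ε) :
    ∃ ρ > (0 : ℝ), ∀ y ∈ S, ∀ h : E, ‖h‖ ≤ ρ → ‖M.W h y - y‖ ≤ ε := by
  have h1 : ∀ᶠ h in 𝓝 (0 : E), ∀ y ∈ S, ‖M.W h y - y‖ ≤ ε := by
    refine (eventually_all_finite hS).2 fun y _ => ?_
    have h2 : Tendsto (fun h => ‖M.W h y - y‖) (𝓝 0) (𝓝 ‖M.W 0 y - y‖) :=
      ((M.continuous_W y).sub continuous_const).norm.tendsto 0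
    rw [M.W_zero, one_apply_eq_self, sub_self, norm_zero] at h2
    exact h2.eventually (Iic_mem_nhds hε)
  obtain ⟨ρ, hρ, h2⟩ := Metric.nhds_basis_closedBall.eventually_iff.1 h1
  exact ⟨ρ, hρ, fun y hy h hh => h2 (mem_closedBall_zero_iff.2 hh) y hy⟩

variable (M j η f) in
/-- the conclusion of `SubOK` -/
def MacC (P : ℕ → List (ℝ × (ℕ → ℝ))) (q : ℕ) (γ C : ℝ) (V : ℝ → K →L[ℂ] K) (a a1 a2 : ℝ) (X A B : Set ℝ)
    (T : K →L[ℂ] K) (Y : Finset K) (ε0 ε1 ε : ℝ) : Prop :=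
  ∃ V' a', a2 ≤ a' ∧ M.Inv j η f V' a' ∧ M.Near η V' (X ∪ B) ∧
    (∀ u ∈ B, M.Wclose f (V u) (V' u) Y (C * ε0 + ε)) ∧
    (∃ (θ : ℂ) (y' : ℝ → K), ‖θ‖ = 1 ∧ MemLp y' 2 mu0 ∧ (∀ u ∉ B, y' u = 0) ∧
      ‖JJ j y' - ((γ : ℝ) : ℂ) •
          JJ j (B.indicator fun _ => M.opS (P q) q (f (X ∪ B)) M.Ω)‖ ≤
        Real.sqrt (mu0.real B) * (C * Real.sqrt (mu0.real B) + |γ| * l1 (P q) * ε1) + ε ∧
      ∀ u ∈ A, V' u = θ • (M.WZ (JJ j y') * V u)) ∧
    (∃ (T' : K →L[ℂ] K) (θ : ℂ), (∀ u ∈ Set.Ico a a1, V' u = T') ∧ ‖θ‖ = 1 ∧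
      ‖T' M.Ω - θ • T M.Ω‖ ≤ C * (mu0.real B * Real.sqrt (mu0.real B)) + ε ∧
      M.Loc j Bᶜ (T' * star T)) ∧
    (∀ u ∈ (X \ A) ∪ Set.Ico η a, V' u = V u) ∧
    (∀ u ∈ Dt η \ (X ∪ B), M.Wclose f (V u) (V' u) Y ε) ∧
    (∀ u ∈ Dt η \ (X ∪ B), M.Loc j (X ∪ Set.Ico η a1) (V' u * star (V u))) ∧
    (∀ u, M.Loc j ((X \ A) ∪ Set.Ico η a) (V' u * star (V u)))

theorem mac_ind {B : Set ℝ} (hB : MeasurableSet B) (x : K) :
    ‖JJ j (B.indicator fun _ => x)‖ ≤ ‖x‖ * Real.sqrt (mu0.real B) :=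
  norm_JJ_le j hB (norm_nonneg x) (fun u hu => by rw [Set.indicator_of_mem hu]) fun u hu =>
    Set.indicator_of_notMem hu _

/-- a null piece is skipped -/
theorem macC_null {q : ℕ} {γ C : ℝ} {V : ℝ → K →L[ℂ] K} {a a1 a2 : ℝ} {X A B : Set ℝ} {T : K →L[ℂ] K}
    {Y : Finset K} {ε0 ε1 ε : ℝ} (hV : M.Inv j η f V a2) (hN : M.Near η V (X ∪ B)) (hB : MeasurableSet B)
    (h0 : mu0.real B = 0) (hT : ∀ u ∈ Set.Ico a a1, V u = T) (hT' : T ∈ unitary (K →L[ℂ] K))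
    (hC : 0 ≤ C * ε0) (hε : 0 ≤ ε) : M.MacC j η f P q γ C V a a1 a2 X A B T Y ε0 ε1 ε := by
  refine ⟨V, a2, le_rfl, hV, hN, fun u _ => wclose_refl _ _ (by linarith),
    ⟨1, fun _ => 0, norm_one, MemLp.zero, fun _ _ => rfl, ?_, fun u _ => ?_⟩,
    ⟨T, 1, hT, norm_one, ?_, loc_incr_self hT'⟩, fun _ _ => rfl, fun u _ => wclose_refl _ _ hε,
    fun u _ => loc_incr_self (MGood.mem M hV.good u), fun u => loc_incr_self (MGood.mem M hV.good u)⟩
  · have := mac_ind (j := j) hB (M.opS (P q) q (f (X ∪ B)) M.Ω)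
    rw [h0, Real.sqrt_zero, mul_zero, norm_le_zero_iff] at this
    rw [this, JJ_zero, h0]
    simpa using hε
  · rw [JJ_zero, M.WZ_zero, one_mul, one_smul]
  · rw [h0]
    simpa using hε

variable (M j η f) in
/-- the invariant: the labels `< s` of `Dt η \ X` have sent the message `m` -/
structure MacSt (V : ℝ → K →L[ℂ] K) (a a1 γ : ℝ) (X A : Set ℝ) (Y : Finset K) (m : K) (e1 : ℝ)
    (s e2 e3 e4 : ℝ) (V' : ℝ → K →L[ℂ] K) (a' : ℝ) : Prop where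
  le : a1 ≤ a'
  inv : M.Inv j η f V' a'
  wc1 : ∀ u ∈ Dt η \ X, s ≤ u → M.Wclose f (V u) (V' u) Y e2
  wc2 : ∀ u ∈ Dt η \ X, M.Wclose f (V u) (V' u) Y (e1 + e2)
  onA : ∃ (θ : ℂ) (y' : ℝ → K), ‖θ‖ = 1 ∧ MemLp y' 2 mu0 ∧ (∀ u, s ≤ u → y' u = 0) ∧
    ‖JJ j y' - ((γ : ℝ) : ℂ) • JJ j (((Dt η \ X) ∩ Set.Iio s).indicator fun _ => m)‖ ^ 2 ≤ e3 ∧
    ∀ u ∈ A, V' u = θ • (M.WZ (JJ j y') * V u)
  med1 : ∀ u ∈ Set.Ico a a1, V' u = V' a
  med2 : ∃ θ : ℂ, ‖θ‖ = 1 ∧ ‖V' a M.Ω - θ • M.Ω‖ ≤ e4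
  med3 : M.Loc j ((Dt η \ X) ∩ Set.Ici s) (V' a)
  same : ∀ u ∈ (X \ A) ∪ Set.Ico η a, V' u = V u
  loc1 : ∀ u ∈ Dt η \ X, s ≤ u → M.Loc j (X ∪ Set.Ico η a1) (V' u * star (V u))
  loc2 : ∀ u, M.Loc j ((X \ A) ∪ Set.Ico η a) (V' u * star (V u))

theorem mac_start (h0 : 0 < η) {V : ℝ → K →L[ℂ] K} {a a1 γ : ℝ} {X A : Set ℝ} {Y : Finset K} {m : K} {e1 : ℝ}
    (hV : M.Inv j η f V a) (h1 : a < a1) (h2 : a1 < 2 * η) (he : 0 ≤ e1) :
    M.MacSt j η f V a a1 γ X A Y m e1 0 0 0 0 V a1 := by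
  have ha : V a = 1 := hV.fresh1 a ⟨le_rfl, hV.hi⟩
  refine ⟨le_rfl, hV.advance h1.le h2, fun u _ _ => wclose_refl _ _ le_rfl, fun u _ => wclose_refl _ _ (by linarith),
    ⟨1, fun _ => 0, norm_one, MemLp.zero, fun _ _ => rfl, ?_, fun u _ => ?_⟩,
    fun u hu => by rw [ha, hV.fresh1 u ⟨hu.1, hu.2.trans h2⟩], ⟨1, norm_one, by simp [ha]⟩, by rw [ha]; exact loc_one _,
    fun _ _ => rfl, fun u _ _ => loc_incr_self (MGood.mem M hV.good u), fun u => loc_incr_self (MGood.mem M hV.good u)⟩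
  · have e : (Dt η \ X) ∩ Set.Iio 0 = ∅ := Set.eq_empty_of_forall_notMem fun u hu => by
      have h3 : 2 * η ≤ u := hu.1.1.1
      have h4 : u < 0 := hu.2
      linarith
    rw [e, Set.indicator_empty, JJ_zero]
    simp
  · rw [JJ_zero, M.WZ_zero, one_mul, one_smul]

theorem mac_step {q : ℕ} {V V1 : ℝ → K →L[ℂ] K} {a a1 a2 γ C ε0 ε1 ε s s' e2 e3 e4 d3 d4 : ℝ} {X A : Set ℝ}
    {Y : Finset K} {m : K} (hX : MeasurableSet X) (ha : a < a1)
    (hst : M.MacSt j η f V a a1 γ X A Y m (C * ε0) s e2 e3 e4 V1 a2) (hs : s ≤ s') {B : Set ℝ}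
    (hB : B = (Dt η \ X) ∩ Set.Ico s s') (h : M.MacC j η f P q γ C V1 a a1 a2 X A B (V1 a) Y ε0 ε1 ε)
    (h3 : (Real.sqrt (mu0.real B) * (C * Real.sqrt (mu0.real B) + |γ| * l1 (P q) * ε1) + ε +
      |γ| * (‖M.opS (P q) q (f (X ∪ B)) M.Ω - m‖ * Real.sqrt (mu0.real B))) ^ 2 ≤ d3)
    (h4 : C * (mu0.real B * Real.sqrt (mu0.real B)) + ε ≤ d4) :
    ∃ V2 a3, M.MacSt j η f V a a1 γ X A Y m (C * ε0) s' (e2 + ε) (e3 + d3) (e4 + d4) V2 a3 := by
  obtain ⟨V2, a3, k1, k2, -, k4, ⟨θ, y, hθ, hy, hy0, hy1, hyA⟩, ⟨T', θ', hT1, hθ', hT2, hT3⟩, k7, k8, k9, k10⟩ := h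
  have hD : MeasurableSet (Dt η \ X) := measurableSet_Ico.diff hX
  have hBm : MeasurableSet B := hB ▸ hD.inter measurableSet_Ico
  have hnB : ∀ u ∈ Dt η \ X, u ∉ B → u ∈ Dt η \ (X ∪ B) := fun u hu hn => ⟨hu.1, fun h => h.elim hu.2 hn⟩
  have hnB' : ∀ u, s' ≤ u → u ∉ B := fun u hu h => by rw [hB] at h; exact absurd h.2.2 (not_lt.2 hu)
  have hU := fun u => MGood.mem M hst.inv.good u
  have hTa : V2 a = T' := hT1 a ⟨le_rfl, ha⟩
  refine ⟨V2, a3, hst.le.trans k1, k2, fun u hu h => (hst.wc1 u hu (hs.trans h)).trans (k8 u (hnB u hu (hnB' u h))),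
    fun u hu => ?_, ?_, fun u hu => by rw [hT1 u hu, hTa], ?_, ?_, fun u hu => (k7 u hu).trans (hst.same u hu),
    fun u hu h => (hst.loc1 u hu (hs.trans h)).trans (hU u) (k9 u (hnB u hu (hnB' u h))),
    fun u => (hst.loc2 u).trans (hU u) (k10 u)⟩
  · by_cases h : u ∈ B
    · exact ((hst.wc1 u hu (by rw [hB] at h; exact h.2.1)).trans (k4 u h)).mono subset_rfl (by linarith)
    · exact ((hst.wc2 u hu).trans (k8 u (hnB u hu h))).mono subset_rfl (by linarith)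
  · obtain ⟨θ0, y0, hθ0, hy00, hy01, hy02, hy03⟩ := hst.onA
    have hor : ∀ u, u ∉ B ∨ s ≤ u := fun u => by
      by_cases h : u ∈ B
      · rw [hB] at h; exact Or.inr h.2.1
      · exact Or.inl h
    refine ⟨θ * θ0, fun u => y u + y0 u, by rw [norm_mul, hθ, hθ0, one_mul], hy.add hy00,
      fun u hu => by simp only [hy0 u (hnB' u hu), hy01 u (hs.trans hu), add_zero], ?_, fun u hu => ?_⟩
    · have m1 : ∀ x : K, MemLp (B.indicator fun _ => x) 2 mu0 := fun x => (memLp_const x).indicator hBm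
      have m2 : MemLp (((Dt η \ X) ∩ Set.Iio s).indicator fun _ => m) 2 mu0 :=
        (memLp_const m).indicator (hD.inter measurableSet_Iio)
      have e1 : (((Dt η \ X) ∩ Set.Iio s').indicator fun _ => m) =
          fun u => (B.indicator fun _ => m) u + (((Dt η \ X) ∩ Set.Iio s).indicator fun _ => m) u := by
        rw [← Set.indicator_union_of_disjoint, hB, ← Set.inter_union_distrib_left, Set.union_comm,
          Set.Iio_union_Ico_eq_Iio hs]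
        rw [hB]
        exact Set.disjoint_left.2 fun u h1 h2 => absurd h2.2 (not_lt.2 h1.2.1)
      have e2 : inner ℂ (JJ j y - ((γ : ℝ) : ℂ) • JJ j (B.indicator fun _ => m))
          (JJ j y0 - ((γ : ℝ) : ℂ) • JJ j (((Dt η \ X) ∩ Set.Iio s).indicator fun _ => m)) = 0 := by
        have sub : ∀ {z z' : ℝ → K}, MemLp z 2 mu0 → MemLp z' 2 mu0 → JJ j z - ((γ : ℝ) : ℂ) • JJ j z' =
            JJ j fun u => z u - ((γ : ℝ) : ℂ) • z' u := fun hz hz' => by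
          rw [← JJ_smul]; exact (JJ_sub j hz (hz'.const_smul _)).symm
        rw [sub hy (m1 m), sub hy00 m2]
        refine JJ_orth j fun u => (hor u).imp (fun h => ?_) fun h => ?_
        · rw [hy0 u h, Set.indicator_of_notMem h, smul_zero, sub_zero]
        · rw [hy01 u h, Set.indicator_of_notMem fun h' => absurd h'.2 (not_lt.2 h), smul_zero, sub_zero]
      have e3 : ‖JJ j y - ((γ : ℝ) : ℂ) • JJ j (B.indicator fun _ => m)‖ ^ 2 ≤ d3 := by
        refine (pow_le_pow_left₀ (norm_nonneg _) ?_ 2).trans h3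
        refine (norm_sub_le_norm_sub_add_norm_sub _ _ _).trans (add_le_add hy1 ?_)
        rw [← smul_sub, norm_smul, Complex.norm_real, Real.norm_eq_abs, ← JJ_sub j (m1 _) (m1 _)]
        refine mul_le_mul_of_nonneg_left (le_of_eq_of_le ?_ (mac_ind (j := j) hBm _)) (abs_nonneg _)
        congr 2
        exact (Set.indicator_sub B _ _).symm
      rw [e1, JJ_add j hy hy00, JJ_add j (m1 m) m2, smul_add, add_sub_add_comm, sq,
        norm_add_sq_eq_norm_sq_add_norm_sq_of_inner_eq_zero _ _ e2, ← sq, ← sq]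
      linarith
    · have e : inner ℂ (JJ j y) (JJ j y0) = 0 := JJ_orth j fun u => (hor u).imp (hy0 u) (hy01 u)
      rw [hyA u hu, hy03 u hu, JJ_add j hy hy00, mul_smul_comm, smul_smul, ← mul_assoc, M.WZ_mul, e]
      simp
  · obtain ⟨θ0, hθ0, h0⟩ := hst.med2
    refine ⟨θ' * θ0, by rw [norm_mul, hθ', hθ0, one_mul], ?_⟩
    refine (norm_sub_le_norm_sub_add_norm_sub _ (θ' • V1 a M.Ω) _).trans ?_
    rw [mul_smul, ← smul_sub, norm_smul, hθ', one_mul, hTa]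
    linarith
  · rw [hTa]
    exact (hst.med3.mono fun u hu => ⟨hu.1, hs.trans hu.2⟩).of_incr (hU a) (hT3.mono fun u hu => hnB' u hu.2)

theorem MacSt.near {V V1 : ℝ → K →L[ℂ] K} {a a1 a2 γ e1 s e2 e3 e4 δ : ℝ} {X A : Set ℝ} {Y : Finset K} {m : K}
    (hst : M.MacSt j η f V a a1 γ X A Y m e1 s e2 e3 e4 V1 a2) (hV : M.MGood j V) (h1 : M.Ω ∈ Y)
    (h2 : ∀ u, M.psi (V u) ∈ Y) (hδ : ∀ u ∈ Dt η \ X, ‖M.psi (V u) - M.Z M.Ω‖ + δ < 1 / 10)
    (he : 2 * (e1 + e2) ≤ δ) : M.Near η V1 X := fun u hu => by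
  have h3 := (hst.wc2 u hu).psi (MGood.mem M hV u) (MGood.mem M hst.inv.good u) h1 (h2 u)
  linarith [norm_sub_le_norm_sub_add_norm_sub (M.psi (V1 u)) (M.psi (V u)) (M.Z M.Ω), hδ u hu]

/-- the receivers' field acts on the unprocessed senders as it did at the start -/
theorem MacSt.recv {V V1 : ℝ → K →L[ℂ] K} {a a1 a2 γ e1 s e2 e3 e4 : ℝ} {X A : Set ℝ} {Y : Finset K} {m : K}
    (hst : M.MacSt j η f V a a1 γ X A Y m e1 s e2 e3 e4 V1 a2) (hV : M.MGood j V) (hA : A ⊆ X) (c : ℂ) {u : ℝ}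
    (hu : u ∈ Dt η \ X) (hs : s ≤ u) :
    ‖M.W (c • JJ j (A.indicator (M.psiL V1))) (V1 u M.Ω) - V1 u M.Ω‖ =
      ‖M.W (c • JJ j (A.indicator (M.psiL V))) (V u M.Ω) - V u M.Ω‖ := by
  obtain ⟨θ, y, hθ, -, -, -, h⟩ := hst.onA
  have e : A.indicator (M.psiL V1) = A.indicator (M.psiL V) := Set.indicator_congr fun u hu => by
    rw [psiL, psiL, h u hu, M.psi_smul hθ, M.psi_mul_of_commute (M.WZ_mem _) (M.Z_WZ _)]
  have h1 := (hst.loc1 u hu hs).commute (y := A.indicator (M.psiL V))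
    (fun v hv => Set.indicator_of_notMem (fun h => hv (Or.inl (hA h))) _) c
  have h2 : V1 u M.Ω = (V1 u * star (V u)) (V u M.Ω) := by
    rw [mul_apply_eq_comp, unit_star_apply (MGood.mem M hV u)]
  rw [e, h2, ← mul_apply_eq_comp (M.W _), h1.eq, mul_apply_eq_comp (V1 u * star (V u)), ← map_sub,
    unit_norm (mul_mem (MGood.mem M hst.inv.good u) (Unitary.star_mem (MGood.mem M hV u)))]

theorem mac_piece {X : Set ℝ} {s s' : ℝ} (hs : s ≤ s') : mu0.real ((Dt η \ X) ∩ Set.Ico s s') ≤ s' - s := by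
  rw [← Real.volume_real_Ico_of_le hs]
  exact ENNReal.toReal_mono (by simp) ((Measure.restrict_le_self _).trans (measure_mono Set.inter_subset_right))

/-- `a1 := (a + 2η)/2`, mediators `μ = Ico a a1` (`Inv.advance`; `V = 1` on `μ`, `Loc μ (V u)`).
`Y₀ = Y ∪ {Ω} ∪ ψ(range V)`. Choose `τ` (continuity of `W` at the finitely many `V u Ω`) with
`|γ| l1 ε1` small, take `C` from `SubOK`, `ε0` with `C ε0` below `ε` and the slack of `Near`
(`Simple.slack`), then `r` large, pieces `B i = (Dt η \ X) ∩ Ico (i/r) ((i+1)/r)`, then `ε'`.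
Induction on `i ≤ r` (skip pieces of measure `0`): `Inv`; `Wclose (V u) (V_i u) Y₀` with error
`i ε'` (unprocessed `u`) or `C ε0 + i ε'` (processed), hence `Near V_i X` (`Wclose.psi`);
on `A`: `V_i u = θ WZ (JJ y_i) V u`, `y_i` supported on the processed pieces, and the squared error
against `γ JJ(1_{processed} m_X Ω)` is the sum of the squared errors (`JJ_orth`, `sig_lip`,
`opS_lip`); mediators `T_i`, `‖T_i Ω - θ Ω‖ ≤ Σ (C b√b + ε') ≤ 1/20`, `Loc (unprocessed) T_i`;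
for unprocessed `u` the increment is `Loc (X ∪ Ico η a1)` (gives `Loc μ (V_i u)` and keeps `ε1`,
as `ψ` is unchanged on `A`); unchanged on `(X \ A) ∪ Ico η a`; locality for all `u`. -/
theorem readOK_succ (hf : M.IsSig j η P f) (h0 : 0 < η) (h1 : η ≤ 1 / 1000) (q : ℕ)
    (h : M.SubOK j η f P q) : M.ReadOK j η f (q + 1) := by
  classical
  intro V a X A γ Y ε hV hX hN hA hAX hε
  have hS := MGood.simple M hV.good
  obtain ⟨a1, ha1⟩ : ∃ a1, a1 = (a + 2 * η) / 2 := ⟨_, rfl⟩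
  have haa : a < a1 := by linarith [hV.hi]
  have ha2 : a1 < 2 * η := by linarith [hV.hi]
  obtain ⟨δ, hδ, hδ'⟩ := (hS.comp fun T => ‖M.psi T - M.Z M.Ω‖).slack _ hN
  obtain ⟨Y0, hY0⟩ : ∃ Y0 : Finset K, Y0 = insert M.Ω (Y ∪ (hS.comp M.psi).1.toFinset) := ⟨_, rfl⟩
  have hY1 : M.Ω ∈ Y0 := by simp [hY0]
  have hY2 : ∀ u, M.psi (V u) ∈ Y0 := fun u => by simp [hY0]
  have hY3 : Y ⊆ Y0 := fun y hy => by simp [hY0, hy]
  have hl := b4_l1 (P q)
  have hγ := abs_nonneg γ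
  obtain ⟨ε1, hε1, hε1'⟩ : ∃ ε1 > (0 : ℝ), |γ| * l1 (P q) * ε1 ≤ ε / 4 :=
    ⟨ε / 4 / (|γ| * l1 (P q) + 1), by positivity, by
      rw [← mul_div_assoc, div_le_iff₀ (by positivity)]; nlinarith⟩
  obtain ⟨ρ1, hρ1, hρ1'⟩ := mac_unif (M := M) _ (hS.comp fun T => T M.Ω).1 hε1
  obtain ⟨τ, hτ, hτ'⟩ : ∃ τ > (0 : ℝ), ‖((τ : ℝ) : ℂ) • JJ j (A.indicator (M.psiL V))‖ ≤ ρ1 :=
    ⟨ρ1 / (‖JJ j (A.indicator (M.psiL V))‖ + 1), by positivity, by
      rw [norm_smul, Complex.norm_real, Real.norm_of_nonneg (by positivity), div_mul_eq_mul_div,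
        div_le_iff₀ (by positivity)]; nlinarith⟩
  obtain ⟨C, hC, H⟩ := h γ τ (a1 - a) hτ (by linarith)
  obtain ⟨η0, hη0, hη1, hη2, hη3⟩ : ∃ η0 > (0 : ℝ), η0 ≤ ε / 4 ∧ η0 ≤ δ / 4 ∧ η0 ≤ 1 / 40 :=
    ⟨min (ε / 4) (min (δ / 4) (1 / 40)), by positivity, min_le_left _ _, (min_le_right _ _).trans (min_le_left _ _),
      (min_le_right _ _).trans (min_le_right _ _)⟩
  obtain ⟨ε0, hε0, hε0'⟩ : ∃ ε0 > (0 : ℝ), C * ε0 ≤ η0 :=
    ⟨η0 / (C + 1), by positivity, by rw [← mul_div_assoc, div_le_iff₀ (by positivity)]; nlinarith⟩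
  obtain ⟨ρ, hρ, hρ'⟩ := mac_unif (M := M) _ Y0.finite_toSet hε0
  obtain ⟨C1, hC1, H1⟩ := M.sig_lip hf h0 (by linarith) q
  obtain ⟨C2, hC2, H2⟩ := M.opS_lip (P q) q C1
  obtain ⟨t, ht, ht1, ht2, ht3⟩ : ∃ t > (0 : ℝ), (C + |γ| * (C2 * C1)) * t ≤ η0 ∧ C * t ≤ ρ ∧
      mu0.real X + t ^ 2 < 1 / 200 := by
    have c1 : ∀ᶠ t in 𝓝 (0 : ℝ), (C + |γ| * (C2 * C1)) * t < η0 :=
      (by fun_prop : Continuous fun t : ℝ => (C + |γ| * (C2 * C1)) * t).continuousAt.eventually_lt continuousAt_const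
        (by simpa using hη0)
    have c2 : ∀ᶠ t in 𝓝 (0 : ℝ), C * t < ρ :=
      (by fun_prop : Continuous fun t : ℝ => C * t).continuousAt.eventually_lt continuousAt_const (by simpa using hρ)
    have c3 : ∀ᶠ t in 𝓝 (0 : ℝ), mu0.real X + t ^ 2 < 1 / 200 :=
      (by fun_prop : Continuous fun t : ℝ => mu0.real X + t ^ 2).continuousAt.eventually_lt continuousAt_const
        (by simpa using hX.2.2)
    obtain ⟨t, ⟨k1, k2, k3⟩, k4⟩ := (((c1.and (c2.and c3)).filter_mono nhdsWithin_le_nhds).and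
      (self_mem_nhdsWithin (s := Set.Ioi 0))).exists
    exact ⟨t, k4, k1.le, k2.le, k3⟩
  obtain ⟨r, hr⟩ := exists_nat_gt (1 / t ^ 2)
  have hr0 : (0 : ℝ) < r := lt_trans (by positivity) hr
  obtain ⟨b, hb⟩ : ∃ b : ℝ, b = 1 / r := ⟨_, rfl⟩
  have hb0 : 0 < b := by rw [hb]; positivity
  have hb1 : r * b = 1 := by rw [hb]; field_simp
  have hb2 : b ≤ t ^ 2 := by
    rw [hb, div_le_iff₀ hr0]
    rw [div_lt_iff₀ (by positivity)] at hr
    linarith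
  have hCt : C * t ≤ η0 := by nlinarith [mul_nonneg (mul_nonneg hγ (mul_nonneg hC2 hC1)) ht.le]
  have hCε := mul_nonneg hC hε0.le
  have main : ∀ i : ℕ, i ≤ r → ∃ V' a', M.MacSt j η f V a a1 γ X A Y0 (M.opS (P q) q (f X) M.Ω) (C * ε0) (i * b)
      (i * (b * η0)) (i * (b * ε ^ 2)) (i * (b * (2 * η0))) V' a' := by
    intro i
    induction i with
    | zero => intro _; exact ⟨V, a1, by simpa using mac_start h0 hV haa ha2 hCε⟩
    | succ i ih =>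
      intro hi
      obtain ⟨V1, a2, hst⟩ := ih (by omega)
      have hib : (i : ℝ) * b ≤ 1 := by
        rw [← hb1]
        exact mul_le_mul_of_nonneg_right (by exact_mod_cast (by omega : i ≤ r)) hb0.le
      have hib' : (i : ℝ) * (b * η0) ≤ η0 := by rw [← mul_assoc]; exact mul_le_of_le_one_left hη0.le hib
      obtain ⟨B, hB⟩ : ∃ B, B = (Dt η \ X) ∩ Set.Ico (i * b) (i * b + b) := ⟨_, rfl⟩
      have hBm : MeasurableSet B := hB ▸ (measurableSet_Ico.diff hX.1).inter measurableSet_Ico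
      have hμ : mu0.real B ≤ b := by
        have := mac_piece (η := η) (X := X) (show (i : ℝ) * b ≤ i * b + b by linarith)
        rw [← hB] at this
        linarith
      have hμ0 : 0 ≤ mu0.real B := measureReal_nonneg
      have hs0 := Real.sqrt_nonneg (mu0.real B)
      have hst' : Real.sqrt (mu0.real B) ≤ t := Real.sqrt_le_iff.2 ⟨ht.le, hμ.trans hb2⟩
      have hN1 : M.Near η V1 (X ∪ B) := (hst.near hV.good hY1 hY2 hδ' (by linarith)).mono Set.subset_union_left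
      have hc : M.MacC j η f P q γ C V1 a a1 a2 X A B (V1 a) Y0 ε0 ε1 (b * η0) := by
        rcases hμ0.eq_or_lt with h2 | h2
        · exact macC_null hst.inv hN1 hBm h2.symm hst.med1 (MGood.mem M hst.inv.good a) hCε (by positivity)
        obtain ⟨θ0, hθ0, h3⟩ := hst.med2
        refine H V1 a a1 a2 X A B (V1 a) θ0 Y0 ε0 ε1 (b * η0) hst.inv hV.lo (by ring) hst.le
          ⟨hX.1.union hBm, Set.union_subset hX.2.1 (hB ▸ fun u hu => hu.1.1), ?_⟩ hX.1 hBm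
          (Set.disjoint_left.2 fun u h4 h5 => by rw [hB] at h5; exact h5.1.2 h4) h2 hN1 hA hAX hst.med1
          (hst.med3.mono (hB ▸ fun u hu => ⟨hu.1, hu.2.1⟩)) hθ0 (h3.trans (by linarith)) (fun u hu => ?_)
          (fun y hy g hg => hρ' y hy g (hg.trans ((mul_le_mul_of_nonneg_left hst' hC).trans ht2))) (fun u hu => ?_)
          (by positivity)
        · linarith [measureReal_union_le (μ := mu0) X B]
        · rw [hB] at hu
          exact ((hV.fresh2 u).mono (Set.Ico_subset_Ico_right ha2.le)).of_incr (MGood.mem M hV.good u)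
            ((hst.loc1 u hu.1 hu.2.1).mono fun v hv => Or.inr ⟨hV.lo.trans hv.1, hv.2⟩)
        · rw [hB] at hu
          rw [hst.recv hV.good hAX _ hu.1 hu.2.1]
          exact hρ1' _ ⟨u, rfl⟩ _ hτ'
      have h2 := mac_step (d3 := b * ε ^ 2) (d4 := b * (2 * η0)) hX.1 haa hst (by linarith) hB hc ?_ ?_
      · obtain ⟨V2, a3, h2⟩ := h2
        refine ⟨V2, a3, ?_⟩
        simpa only [Nat.cast_succ, add_mul, one_mul] using h2
      · have k1 := H2 (f (X ∪ B)) (f X) (C1 * t) fun i hi =>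
          ⟨(H1 (X ∪ B) B (hX.1.union hBm) hBm i hi).2, (H1 X B hX.1 hBm i hi).2,
            (H1 X B hX.1 hBm i hi).1.trans (mul_le_mul_of_nonneg_left hst' hC1)⟩
        have hsb : Real.sqrt (mu0.real B) ≤ Real.sqrt b := Real.sqrt_le_sqrt hμ
        have hb3 : b ≤ Real.sqrt b := by
          refine Real.le_sqrt_of_sq_le ?_
          have : b ≤ 1 := by nlinarith [measureReal_nonneg (μ := mu0) (s := X)]
          nlinarith
        have k2 : Real.sqrt (mu0.real B) * (C * Real.sqrt (mu0.real B) + |γ| * l1 (P q) * ε1) + b * η0 +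
            |γ| * (‖M.opS (P q) q (f (X ∪ B)) M.Ω - M.opS (P q) q (f X) M.Ω‖ * Real.sqrt (mu0.real B)) ≤
            Real.sqrt b * ε := by
          have k3 : Real.sqrt (mu0.real B) * (C * Real.sqrt (mu0.real B) + |γ| * l1 (P q) * ε1) ≤
              Real.sqrt b * (C * t + ε / 4) := by gcongr
          have k4 : |γ| * (‖M.opS (P q) q (f (X ∪ B)) M.Ω - M.opS (P q) q (f X) M.Ω‖ * Real.sqrt (mu0.real B)) ≤
              |γ| * (C2 * (C1 * t) * Real.sqrt b) := by gcongr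
          have k5 := mul_le_mul_of_nonneg_right hb3 hη0.le
          have k6 := mul_le_mul_of_nonneg_left ht1 (Real.sqrt_nonneg b)
          have k7 := mul_le_mul_of_nonneg_left hη1 (Real.sqrt_nonneg b)
          have k8 := mul_nonneg (Real.sqrt_nonneg b) hε.le
          linarith
        refine (pow_le_pow_left₀ (by positivity) k2 2).trans_eq ?_
        rw [mul_pow, Real.sq_sqrt hb0.le]
      · have k1 : C * (mu0.real B * Real.sqrt (mu0.real B)) ≤ C * (b * t) := by gcongr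
        have k2 := mul_le_mul_of_nonneg_left hCt hb0.le
        linarith
  obtain ⟨V', a', hst⟩ := main r le_rfl
  simp only [← mul_assoc, hb1, one_mul] at hst
  obtain ⟨θ, y, hθ, -, -, h2, h3⟩ := hst.onA
  refine ⟨V', a', haa.le.trans hst.le, hst.inv, hst.near hV.good hY1 hY2 hδ' (by linarith), ⟨JJ j y, θ, hθ, ?_, h3⟩,
    hst.same, fun u hu => (hst.wc2 u hu).mono hY3 (by linarith), hst.loc2⟩
  rw [Set.inter_eq_left.2 fun u hu => hu.1.2, ← (hf X).2 q] at h2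
  exact (pow_le_pow_iff_left₀ (norm_nonneg _) hε.le two_ne_zero).1 h2

end Model
end Crest.Agent.R339
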