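import Crest.Agent.R339.D2.Trot
import Crest.Agent.R339.D2.Sub.Alg
import Crest.Agent.R339.D2.Sub.Lst
import Crest.Agent.R339.D2.Sub.Cp

/-! # Row 339, block D2: one sender class -/

set_option autoImplicit false
set_option linter.unusedSectionVars false
open MeasureTheory ProbabilityTheory Filter Topology Complex
open Crest.MathPhysics.SpinGlass

namespace Crest.Agent.R339
variable {E K : Type} [NormedAddCommGroup E] [InnerProductSpace ℂ E]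
  [NormedAddCommGroup K] [InnerProductSpace ℂ K] [CompleteSpace K]
namespace Model
variable {M : Model E K} {j : Lp K 2 mu0 →ₗᵢ[ℂ] E} {η : ℝ} {P : ℕ → List (ℝ × (ℕ → ℝ))}
  {f : Set ℝ → ℕ → E}

theorem sub_JJ_sub {S : Set ℝ} (hS : MeasurableSet S) {y y' : ℝ → K} (hy : Simple y) (hy' : Simple y') :
    JJ j (S.indicator y) - JJ j (S.indicator y') = JJ j (S.indicator fun u => y u - y' u) := by
  rw [← JJ_sub j ((hy.indicator hS).memLp _) ((hy'.indicator hS).memLp _), Set.indicator_sub]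

theorem sub_JJ_norm {S : Set ℝ} (hS : MeasurableSet S) {y : ℝ → K} {c : ℝ} (hc : 0 ≤ c) (h : ∀ u ∈ S, ‖y u‖ ≤ c) :
    ‖JJ j (S.indicator y)‖ ≤ c * Real.sqrt (mu0.real S) :=
  norm_JJ_le j hS hc (fun u hu => by rw [Set.indicator_of_mem hu]; exact h u hu)
    fun _ hu => Set.indicator_of_notMem hu _

theorem sub_kappa {S : Set ℝ} (hS : MeasurableSet S) {e0 β : ℝ} (he : mu0.real S = e0) (he0 : 0 < e0) (hβ : 0 < β)
    {z w : K} (h : (inner ℂ z w).im ≤ -(2 / 5)) : ∃ κ : ℝ, |κ| ≤ 5 / e0 * β ∧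
      2 * (inner ℂ ((κ : ℂ) • JJ j (S.indicator fun _ => z))
        (((1 / (2 * β) : ℝ) : ℂ) • JJ j (S.indicator fun _ => w))).im = Real.pi / 2 := by
  have hn : (inner ℂ z w).im ≠ 0 := by linarith
  refine ⟨Real.pi * β / (2 * e0 * (inner ℂ z w).im), ?_, ?_⟩
  · rw [abs_div, abs_of_pos (by positivity), abs_mul, abs_of_pos (by positivity), abs_of_neg (by linarith),
      div_le_iff₀ (by nlinarith), show 5 / e0 * β * (2 * e0 * -(inner ℂ z w).im) = β * (10 * -(inner ℂ z w).im) by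
        field_simp; ring, mul_comm]
    exact mul_le_mul_of_nonneg_left (by linarith [Real.pi_le_four]) hβ.le
  · rw [inner_smul_left, inner_smul_right, JJ_inner_const j hS hS, Set.inter_self, he, conj_ofReal, im_ofReal_mul,
      im_ofReal_mul, im_ofReal_mul]
    field_simp

theorem sub_omega {b ε : ℝ} (hb : 0 < b) (hε : 0 < ε) (Y : Finset K) :
    ∃ ω : ℝ, 0 < ω ∧ ω ≤ b ∧ 8 * ω ≤ ε ∧ ∀ y ∈ Y, ω + ω * ‖y‖ ≤ ε := by
  have hN : 0 ≤ ∑ y ∈ Y, ‖y‖ := Finset.sum_nonneg fun _ _ => norm_nonneg _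
  have h := (le_div_iff₀ (by positivity)).1 (min_le_right b (ε / (8 + ∑ y ∈ Y, ‖y‖)))
  have h0 : 0 < min b (ε / (8 + ∑ y ∈ Y, ‖y‖)) := by positivity
  refine ⟨_, h0, min_le_left _ _, by nlinarith, fun y hy => ?_⟩
  nlinarith [mul_le_mul_of_nonneg_left (Finset.single_le_sum (f := fun y : K => ‖y‖) (fun _ _ => norm_nonneg _) hy) h0.le]

theorem sub_num {R k c C β ω ε : ℝ} (hC : C = 10 + R + k + c * k + 4 * R * k ^ 2) (hR : 0 ≤ R) (hk : 0 < k)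
    (hc : 0 ≤ c) (hβ : 0 < β) (hβ1 : β ≤ 1) (hω : 0 < ω) (hωβ : ω ≤ β ^ 2) (hωε : 8 * ω ≤ ε) :
    k ≤ C ∧ (∀ ε0, 0 ≤ ε0 → R * ε0 + 2 * ε0 ≤ C * ε0) ∧
    (∀ ε1, ω + (ω + c * (k * β + ε1)) * β ≤ β * (C * β + c * ε1) + ε) ∧
    ∀ n, n ≤ ω + (ω + R * k ^ 2 * β ^ 2) * β → 8 * n ≤ 2 * β * (C * β) ∧
      ∀ d, d ≤ 2 * ω → 4 * n + 2 * d ≤ C * (β ^ 2 * β) + 2 * ε := by
  have h1 : 0 ≤ c * k := by positivity
  have h2 : 0 ≤ R * k ^ 2 := by positivity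
  have h4 : ω * β ≤ ω := mul_le_of_le_one_right hω.le hβ1
  have h5 : R * k ^ 2 * β ^ 2 * β ≤ R * k ^ 2 * β ^ 2 := mul_le_of_le_one_right (by positivity) hβ1
  have h6 : 0 ≤ β ^ 2 * β := by positivity
  refine ⟨by linarith, fun ε0 h => ?_, fun ε1 => ?_, fun n hn => ⟨?_, fun d hd => ?_⟩⟩
  · nlinarith [mul_le_mul_of_nonneg_right (show R + 2 ≤ C by linarith) h]
  · nlinarith [mul_le_mul_of_nonneg_right (show c * k ≤ C by linarith) (sq_nonneg β)]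
  · nlinarith [mul_le_mul_of_nonneg_right (show 8 + 4 * (R * k ^ 2) ≤ C by linarith) (sq_nonneg β)]
  · nlinarith [mul_le_mul_of_nonneg_right (show 4 * (R * k ^ 2) ≤ C by linarith) h6]

/-- See notes339/route.md. `μ = Ico a a1`, `b = mu0.real B`, `c = 1/2`.
COPY = `rotS μ (π/4)`, `bip μ B (c/√b)`, `rotS μ (-π/4)`: `μ` gets `T₁ = WY (c d) T`,
`d = JJ(1_B ψ)/√b` (unit), `B` gets `WZ l₁`, `l₁ = (c/√b) JJ(1_μ T* Y T Ω)`.
`e₁ = JJ(1_μ ψ(T₁))`, `⟪T*YTΩ, ψ T₁⟫ = i⟪TΩ, X cosW(2cd) TΩ⟫ + i⟪TΩ, Z sinW(2cd) TΩ⟫`, so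
`Im ≥ e^{-1/2} - 4/20 ≥ 0.4` and `κ := (π/2)/(2 Im⟪e₁,l₁⟫)` has `|κ| ≤ 4√b/e0`.
PROGRAM (`progOK`, `trot`, `s = inl '' range (q+1) ∪ {inr false, inr true}`) for
`F = (γ/τ) m sinW(κ e₁) sinW(τ x)`, `m = opS (P q) q (f (X ∪ B))`, `x = JJ(1_A ψ)`, written as a list of
sines (`sin a sin b sin c = (sin(a+b-c)+sin(a-b+c)+sin(-a+b+c)-sin(a+b+c))/4`), so that
`trD (inr false) = κ (γ/τ) m cosW(κe₁) sinW(τx)`, `trD (inr true) = γ m sinW(κe₁) cosW(τx)`.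
`WZ_conj_sinW`, `WZ_conj_cosW`, `eI_conj`: `eI(Z F) WZ l₁ = WZ l₁ eI(G cosW(κe₁))`,
`G = (γ/τ) m sinW(τx)`; `eI_duhamel` against `Wu := phase • eI G` (commutes with `X, Z`, signals).
UNCOPY = `rotS μ (π/4)`, `bip μ B (-c/√b)`, `rotS μ (-π/4)`. Mediator: `‖l₂‖ ≤ C b^{3/2} + ε'`,
`(W l - 1)` commutes through `T` (`Loc B T`) and through `V u` (`Loc μ (V u)`), `tame_Ω.W`.
All internal accuracies `ε'` are chosen after `b`. -/
theorem subOK (hf : M.IsSig j η P f) (h0 : 0 < η) (h1 : η ≤ 1 / 1000) (q : ℕ)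
    (h : M.ProgOK j η f q) : M.SubOK j η f P q := by
  classical
  intro γ τ e0 hτ he0
  have hL := b4_l1 (P q)
  obtain ⟨k, hk⟩ : ∃ k, k = 5 / e0 := ⟨_, rfl⟩
  obtain ⟨R, hR⟩ : ∃ R, R = |γ / τ| * l1 (P q) := ⟨_, rfl⟩
  have hk0 : 0 < k := by rw [hk]; positivity
  have hR0 : 0 ≤ R := by rw [hR]; positivity
  have hγL : 0 ≤ |γ| * l1 (P q) := by positivity
  obtain ⟨C, hC⟩ : ∃ C, C = 10 + R + k + |γ| * l1 (P q) * k + 4 * R * k ^ 2 := ⟨_, rfl⟩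
  refine ⟨C, by rw [hC]; positivity, ?_⟩
  intro V a a1 a2 X A B T θ0 Y ε0 ε1 ε hV ha ha1 ha2 hctx hX hB hXB hb hN hA hAX hT hTB hθ0 hTΩ hVμ hY hε1 hε
  obtain ⟨ω, hω, hωb, hωε, hωY⟩ := sub_omega hb (half_pos hε) Y
  have hb1 : mu0.real B ≤ 1 := measureReal_le_one
  obtain ⟨β, hβ⟩ : ∃ β, β = Real.sqrt (mu0.real B) := ⟨_, rfl⟩
  have hβ0 : 0 < β := by rw [hβ]; exact Real.sqrt_pos.2 hb
  have hβ2 : mu0.real B = β ^ 2 := by rw [hβ, Real.sq_sqrt hb.le]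
  have hβ1 : β ≤ 1 := by rw [hβ]; exact Real.sqrt_le_one.2 hb1
  rw [← hβ] at hY ⊢
  obtain ⟨z1, z2, z3, z4⟩ := sub_num hC hR0 hk0 hγL hβ0 hβ1 hω (hβ2 ▸ hωb) hωε
  have hhi := hV.hi
  have hμ : MeasurableSet (Set.Ico a a1) := measurableSet_Ico
  have hμe : mu0.real (Set.Ico a a1) = e0 := by rw [mu0_Ico (by linarith) (by linarith) (by linarith)]; linarith
  have hμ1 : Real.sqrt (mu0.real (Set.Ico a a1)) ≤ 1 := Real.sqrt_le_one.2 measureReal_le_one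
  have hμa : Set.Ico a a1 ⊆ Set.Ico η a2 := Set.Ico_subset_Ico ha ha2
  have hX' := hctx.1
  have hDt : ∀ u ∈ Dt η, u ∉ Set.Ico η a2 := fun u hu hu' => hu.1.not_gt (hu'.2.trans hhi)
  have hXμ : ∀ u ∈ X, u ∉ Set.Ico η a2 := fun u hu => hDt u (hctx.2.1 (Or.inl hu))
  have hBμ : ∀ u ∈ B, u ∉ Set.Ico η a2 := fun u hu => hDt u (hctx.2.1 (Or.inr hu))
  have hXB' : ∀ u ∈ X, u ∉ B := fun u hu => Set.disjoint_left.1 hXB hu
  have hVs := MGood.simple M hV.good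
  have hVu := MGood.mem M hV.good
  have haμ : a ∈ Set.Ico a a1 := ⟨le_rfl, by linarith⟩
  have hTu : T ∈ unitary (K →L[ℂ] K) := hT a haμ ▸ hVu a
  -- copy
  obtain ⟨V3, i3, n3, c1, c2, c3, c4⟩ := exists_cp hf h0 h1 hV hctx hN hμ hB hμa Set.subset_union_right (1 / (2 * β))
  obtain ⟨D, hD⟩ : ∃ D, D = ((1 / (2 * β) : ℝ) : ℂ) • JJ j (B.indicator (M.psiL V)) := ⟨_, rfl⟩
  have hs : ‖((1 / (2 * β) : ℝ) : ℂ)‖ = 1 / (2 * β) := by rw [norm_real, Real.norm_of_nonneg (by positivity)]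
  have hDn : ‖D‖ = 1 / 2 := by
    rw [hD, norm_smul, hs, norm_JJ_indicator j (y := M.psiL V) ((hVs.comp M.psi).memLp _) hB fun u _ => M.norm_psi (hVu u), ← hβ]
    field_simp
  obtain ⟨l, hl⟩ : ∃ l, l = ((1 / (2 * β) : ℝ) : ℂ) • JJ j ((Set.Ico a a1).indicator fun _ => star T (M.Y (T M.Ω))) :=
    ⟨_, rfl⟩
  rw [← hD] at c1
  rw [show ((Set.Ico a a1).indicator fun u => star (V u) (M.Y (V u M.Ω))) =
    (Set.Ico a a1).indicator fun _ => star T (M.Y (T M.Ω)) from Set.indicator_congr fun u hu => by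
      simp only [hT u hu], ← hl] at c2
  replace c1 : ∀ u ∈ Set.Ico a a1, V3 u = M.WY D * T := fun u hu => by rw [c1 u hu, hT u hu]
  obtain ⟨κ, hκ, hκl⟩ := sub_kappa (j := j) hμ hμe he0 hβ0 (med_overlap (M := M) hTu hθ0 hTΩ hDn)
  rw [← hk] at hκ
  rw [← hl, show ((Set.Ico a a1).indicator fun _ => M.psi (M.WY D * T)) = (Set.Ico a a1).indicator (M.psiL V3) from
    Set.indicator_congr fun u hu => by simp only [psiL, c1 u hu]] at hκl
  have hV3s := MGood.simple M i3.good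
  have hV3u := MGood.mem M i3.good
  -- program
  obtain ⟨Tl, hTl⟩ := exists_list (M := M) (P q) q (γ / τ) κ τ
  obtain ⟨p, hp, hp'⟩ := trot M (subS q) Tl ω hω
  obtain ⟨V4, a', ha', i4, n4, ⟨θ, hθ, p1⟩, p2, p3, p4, p5, p6⟩ := h p V3 a2 X B
    (fun b => bif b then A else Set.Ico a a1) (insert M.Ω Y ∪ (hVs.comp M.psi).1.toFinset) ω
    (fun i γ' hi n hn => by
      have := hp i γ' hi
      rw [hn, Finset.mem_coe, subS, Finset.inl_mem_disjSum, Finset.mem_range] at this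
      omega) i3 hctx hX hB hXB n3 (fun b => by cases b; exacts [hμ, hA]) hμa hAX hω
  obtain ⟨θ2, y2, hθ2, hy2, hy2', b2, q2⟩ := p2 false
  obtain ⟨θ1, y1, hθ1, hy1, hy1', b1, q1⟩ := p2 true
  obtain ⟨e1, he1⟩ : ∃ e1, e1 = JJ j ((Set.Ico a a1).indicator (M.psiL V3)) := ⟨_, rfl⟩
  obtain ⟨x1, hx1⟩ : ∃ x1, x1 = JJ j (A.indicator (M.psiL V3)) := ⟨_, rfl⟩
  have hx1' : x1 = JJ j (A.indicator (M.psiL V)) := by
    rw [hx1]; congr 1
    exact Set.indicator_congr fun u hu => by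
      simp only [psiL, c3 u (fun h => hXμ u (hAX hu) (hμa h)) (hXB' u (hAX hu))]
  obtain ⟨g, hg⟩ : ∃ g, g = M.progDir j f X B (fun b => bif b then A else Set.Ico a a1) V3 := ⟨_, rfl⟩
  have g0 : (fun i => g (.inl i)) = f (X ∪ B) := by rw [hg]; rfl
  have g1 : g (.inr false) = e1 := by rw [hg, he1]; rfl
  have g2 : g (.inr true) = x1 := by rw [hg, hx1]; rfl
  rw [← hg] at p1 b1 b2
  have hsx : ∀ X' q', MeasurableSet X' → (inner ℂ (f X' q') x1).im = 0 := fun X' q' hX' =>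
    hx1 ▸ M.sig_im_psi hf h0 hV3s hV3u i3.sig i3.seed hA hX' q'
  have hsμ : ∀ (c : ℂ) (y : ℝ → K) X' q', (inner ℂ (f X' q') (c • JJ j ((Set.Ico a a1).indicator y))).im = 0 :=
    fun c y X' q' => by
      rw [inner_smul_right, M.sig_orth hf X' q' fun u hu => Set.indicator_of_notMem (fun h => hu.elim
        (fun h' => h'.2.not_ge (hμa h).1) fun h' => hDt u h'.1 (hμa h)) _, mul_zero, zero_im]
  have hxμ : ∀ (c c' : ℂ) (y : ℝ → K), (inner ℂ (c' • x1) (c • JJ j ((Set.Ico a a1).indicator y))).im = 0 :=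
    fun c c' y => by
      rw [inner_smul_right, inner_smul_left, hx1, JJ_orth j fun u => (em (u ∈ A)).symm.imp
        (fun h => Set.indicator_of_notMem h _) fun h => Set.indicator_of_notMem (fun h' => hXμ u (hAX h) (hμa h')) _,
        mul_zero, mul_zero, zero_im]
  have him : ∀ {v w : E}, (inner ℂ v w).im = 0 → (inner ℂ w v).im = 0 := fun {v w} h => by
    rw [← inner_conj_symm, conj_im, h, neg_zero]
  have hgi : ∀ i ∈ subS q, ∀ i' ∈ subS q, (inner ℂ (g i) (g i')).im = 0 := by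
    have k1 : ∀ i b, (inner ℂ (g (.inl i)) (g (.inr b))).im = 0 := fun i b => by
      rw [congrFun g0 i]
      cases b
      · simpa only [g1, he1, one_smul] using hsμ 1 (M.psiL V3) (X ∪ B) i
      · rw [g2]; exact hsx _ _ hX'
    have k2 : (inner ℂ (g (.inr true)) (g (.inr false))).im = 0 := by
      simpa only [g1, g2, he1, one_smul] using hxμ 1 1 (M.psiL V3)
    rintro (i | _ | _) - (i' | _ | _) -
    exacts [by rw [congrFun g0 i, congrFun g0 i']; exact M.sig_im hf h0 hX' hX' i i', k1 _ _, k1 _ _, him (k1 _ _),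
      sub_im_self _, him k2, him (k1 _ _), k2, sub_im_self _]
  obtain ⟨t1, t2, t3⟩ := hTl g hgi
  obtain ⟨hPU, hPL⟩ := hp' g hgi
  have hL0 := hPL (.inr false) (Finset.inr_mem_disjSum.2 (Finset.mem_univ _))
  have hL1 := hPL (.inr true) (Finset.inr_mem_disjSum.2 (Finset.mem_univ _))
  rw [t1] at hPU
  rw [t2] at hL0
  rw [t3, div_mul_cancel₀ _ hτ.ne'] at hL1
  rw [g0, g1, g2] at hPU hL0 hL1
  obtain ⟨m, hm⟩ : ∃ m, m = M.opS (P q) q (f (X ∪ B)) := ⟨_, rfl⟩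
  rw [← hm] at hPU hL0 hL1 ⊢
  have hmn : ‖m‖ ≤ l1 (P q) := hm ▸ M.norm_opS _ _ _
  have hmS : ∀ {U : K →L[ℂ] K}, M.SigComm f U → Commute m U := fun h => hm ▸ SigComm.opS M h _ _ hX'
  have hmμ : ∀ (c : ℂ) (y : ℝ → K), Commute (M.W (c • JJ j ((Set.Ico a a1).indicator y))) m := fun c y =>
    (hmS (M.sigComm_W fun X' q' _ => hsμ c y X' q')).symm
  have hsx' : ∀ X' q' (t : ℝ), MeasurableSet X' → (inner ℂ ((t : ℂ) • f X' q') ((τ : ℂ) • x1)).im = 0 :=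
    fun X' q' t hX' => b5_im_smul (hsx X' q' hX') t τ
  have hS : Site M m ((κ : ℂ) • e1) ((τ : ℂ) • x1) l :=
    ⟨hm ▸ M.opS_star _ _ _, (hmS M.sigComm_Z).symm, he1 ▸ hmμ _ _,
      (hmS (M.sigComm_W fun X' q' hX' => by simpa using hsx' X' q' 1 hX')).symm, hl ▸ hmμ _ _,
      he1 ▸ him (hxμ _ _ _), hl ▸ hxμ _ _ _, he1 ▸ hκl⟩
  have hUμ : ∀ u ∈ B, ∀ (c : ℂ) (y : ℝ → K), Commute (M.W (c • JJ j ((Set.Ico a a1).indicator y))) (V u) :=
    fun u hu c y => (hVμ u hu).commute (fun _ hv => Set.indicator_of_notMem hv _) c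
  have hUe : ∀ u ∈ B, Commute (M.W ((κ : ℂ) • e1)) (V u) := fun u hu => he1 ▸ hUμ u hu _ _
  have hen : ‖(κ : ℂ) • e1‖ ≤ k * β := by
    have := sub_JJ_norm (j := j) hμ zero_le_one (y := M.psiL V3) fun u _ => (M.norm_psi (hV3u u)).le
    rw [norm_smul, norm_real, Real.norm_eq_abs, he1]
    exact (mul_le_mul hκ (this.trans ((one_mul _).trans_le hμ1)) (norm_nonneg _) (by positivity)).trans_eq (mul_one _)
  -- back-action on the mediators
  have hl2 : ‖JJ j y2‖ ≤ ω + (ω + R * k ^ 2 * β ^ 2) * β := by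
    have h2 := sub_JJ_norm (j := j) hB (c := ω + R * k ^ 2 * β ^ 2) (by positivity)
      (y := fun u => star (V3 u) (M.progL g (.inr false) p (V3 u M.Ω))) fun u hu => by
        rw [c2 u hu]
        refine (hS.back hmn _ (hVu u) (hUe u hu) hL0).trans (add_le_add le_rfl ?_)
        rw [abs_mul, mul_right_comm |γ / τ|, ← hR, mul_assoc, mul_assoc, ← mul_pow, sq]
        exact mul_le_mul_of_nonneg_left (mul_le_mul hκ hen (norm_nonneg _) (by positivity)) hR0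
    rw [← hβ] at h2
    exact (norm_le_norm_sub_add _ _).trans (add_le_add b2 h2)
  -- uncopy
  have hV4s := MGood.simple M i4.good
  have hV4u := MGood.mem M i4.good
  obtain ⟨V7, i7, n7, d1, d2, d3, d4⟩ := exists_cp hf h0 h1 i4 hctx n4 hμ hB
    (hμa.trans (Set.Ico_subset_Ico_right ha')) Set.subset_union_right (-(1 / (2 * β)))
  replace q2 : ∀ u ∈ Set.Ico a a1, V4 u = θ2 • (M.WZ (JJ j y2) * (M.WY D * T)) := fun u hu => by
    rw [q2 u hu, c1 u hu]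
  have hTy : ∀ c : ℂ, Commute (M.W (c • JJ j y2)) T := hTB.commute hy2'
  obtain ⟨T2, hT2⟩ : ∃ T2, T2 = θ2 • (M.WZ (JJ j y2) * (M.WY D * T)) := ⟨_, rfl⟩
  rw [← hT2] at q2
  rw [show ((Set.Ico a a1).indicator fun u => star (V4 u) (M.Y (V4 u M.Ω))) =
    (Set.Ico a a1).indicator fun _ => star T2 (M.Y (T2 M.Ω)) from Set.indicator_congr fun u hu => by
      simp only [q2 u hu]] at d2
  obtain ⟨l', hl'⟩ : ∃ l', l' = ((-(1 / (2 * β)) : ℝ) : ℂ) •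
    JJ j ((Set.Ico a a1).indicator fun _ => star T2 (M.Y (T2 M.Ω))) := ⟨_, rfl⟩
  obtain ⟨D', hD'⟩ : ∃ D', D' = ((-(1 / (2 * β)) : ℝ) : ℂ) • JJ j (B.indicator (M.psiL V4)) := ⟨_, rfl⟩
  rw [← hl'] at d2
  rw [← hD'] at d1
  have hll : l' + l = ((1 / (2 * β) : ℝ) : ℂ) •
      JJ j ((Set.Ico a a1).indicator fun _ => star T (M.Y (T M.Ω)) - star T2 (M.Y (T2 M.Ω))) := by
    rw [← sub_JJ_sub hμ (Simple.const _) (Simple.const _), hl, hl', ofReal_neg, neg_smul, smul_sub, neg_add_eq_sub]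
  have hDD : D' + D = ((1 / (2 * β) : ℝ) : ℂ) • JJ j (B.indicator fun u => M.psi (V u) - M.psi (V4 u)) := by
    rw [← sub_JJ_sub hB (hVs.comp M.psi) (hV4s.comp M.psi), hD, hD', ofReal_neg, neg_smul, smul_sub, neg_add_eq_sub]
    rfl
  have hlln : ‖l' + l‖ ≤ C * β := by
    have h2 := med_Y (M := M) hTu hθ2 hDn.le (l := JJ j y2) (two_smul ℂ (JJ j y2) ▸ hTy 2)
    rw [← hT2] at h2
    have h3 := (sub_JJ_norm (j := j) hμ (by positivity) fun _ _ => h2).trans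
      (mul_le_of_le_one_right (by positivity) hμ1)
    rw [hll, norm_smul, hs, one_div, inv_mul_le_iff₀ (by positivity)]
    exact h3.trans (z4 _ hl2).1
  have hDDn : ‖D' + D‖ ≤ 2 * ω := by
    have h3 := sub_JJ_norm (j := j) hB (c := 4 * ω) (by positivity) (y := fun u => M.psi (V u) - M.psi (V4 u))
      fun u hu => by
        have e : M.psi (V3 u) = M.psi (V u) := by rw [c2 u hu, M.psi_mul_of_commute (M.WZ_mem l) (M.Z_WZ l)]
        rw [norm_sub_rev, ← e]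
        exact sub_psi (hS.ZF_star _).1 (hS.ZF_star _).2 (hV3u u) (hV4u u) hPU hθ (p1 u hu _ (by simp))
          (p1 u hu _ (e ▸ Finset.mem_union_right _ ((Set.Finite.mem_toFinset _).2 ⟨u, rfl⟩)))
    rw [hDD, norm_smul, hs, one_div, inv_mul_le_iff₀ (by positivity), hβ]
    exact h3.trans_eq (by ring)
  have hS0 : Disjoint ((X \ A) ∪ Set.Ico η a) (Set.Ico a a1) := Set.disjoint_left.2 fun u hu hu' =>
    hu.elim (fun h => hXμ u h.1 (hμa hu')) fun h => h.2.not_ge hu'.1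
  have hS1 : Disjoint ((X \ A) ∪ Set.Ico η a) B := Set.disjoint_left.2 fun u hu hu' =>
    hu.elim (fun h => hXB' u h.1 hu') fun h => hBμ u hu' ⟨h.1, by linarith only [h.2, ha1, ha2, he0]⟩
  have hS2 : (X \ A) ∪ Set.Ico η a ⊆ (X \ A) ∪ (Set.Ico η a2 \ Set.Ico a a1) :=
    Set.union_subset_union_right _ fun u hu => ⟨⟨hu.1, by linarith only [hu.2, ha1, ha2, he0]⟩, fun h => hu.2.not_ge h.1⟩
  have hout : ∀ u ∈ Dt η \ (X ∪ B), V3 u = V u ∧ V7 u = V4 u := fun u hu =>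
    ⟨c3 u (fun h => hDt u hu.1 (hμa h)) fun h => hu.2 (Or.inr h), d3 u (fun h => hDt u hu.1 (hμa h)) fun h => hu.2 (Or.inr h)⟩
  refine ⟨V7, a', ha', i7, n7, fun u hu => ?_, ⟨θ1, y1, hθ1, hy1, hy1', ?_, fun u hu => ?_⟩, ?_, fun u hu => ?_,
    fun u hu => ?_, fun u hu => ?_, fun u => ?_⟩
  · have hG : ∀ {U : K →L[ℂ] K}, Commute U m → Commute (M.W ((τ : ℂ) • x1)) U →
        Commute U ((θ * cexp (-(I * ((inner ℂ l' l).im : ℂ)))) • eI (((γ / τ : ℝ) : ℂ) • (m * M.sinW ((τ : ℂ) • x1)))) :=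
      fun h h' => (eI_commute (Site.G_comm _ h h')).smul_right _
    refine ⟨_, unit_smul (eI_mem (hS.G_star (γ / τ))) (by rw [norm_mul, hθ, a6_exp_norm, mul_one]),
      hG hS.mZ (M.Z_W _).symm, hG (hm ▸ (M.opS_commute _ _ _ fun _ _ _ => (M.X_W _).symm).symm) (M.X_W _).symm,
      fun X' q' t hX'' => hG (hm ▸ M.sigComm_opS hf h0 _ _ hX' X' q' t hX'') (M.W_commute (hsx' X' q' t hX'')).symm,
      fun y hy => ?_⟩
    have h2 := p1 u hu y (Finset.mem_union_left _ (Finset.mem_insert_of_mem hy))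
    rw [c2 u hu] at h2
    have h3 := hS.root hmn (γ / τ) (hVu u) (hUe u hu) (hll ▸ hUμ u hu _ _) (hll ▸ hmμ _ _) (hll ▸ hxμ _ _ _) hPU hθ h2
      (hY y hy _ (hen.trans (mul_le_mul_of_nonneg_right z1 hβ0.le))) (hY y hy _ hlln)
    have h4 : 0 ≤ ε0 := (norm_nonneg _).trans (hY y hy _ hlln)
    rw [← hR] at h3
    rw [d2 u hu]
    refine h3.trans ?_
    linarith only [hωY y hy, z2 _ h4, hε]
  · have hε10 : 0 ≤ ε1 := by
      obtain ⟨u, hu⟩ := nonempty_of_measureReal_ne_zero hb.ne'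
      exact (norm_nonneg _).trans (hε1 u hu)
    have h2 := sub_JJ_norm (j := j) hB (c := ω + |γ| * l1 (P q) * (k * β + ε1)) (by positivity)
      (y := fun u => star (V3 u) (M.progL g (.inr true) p (V3 u M.Ω)) - (γ : ℂ) • m M.Ω) fun u hu => by
        rw [c2 u hu]
        refine (hS.msg hmn γ (hVu u) (hUe u hu) (hmS (hV.sig u)) hL1 (hx1' ▸ hε1 u hu)).trans ?_
        gcongr
    rw [← sub_JJ_sub hB (hV3s.comp fun U => star U (M.progL g (.inr true) p (U M.Ω))) (Simple.const _), ← hβ] at h2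
    rw [← JJ_smul, show (fun u => (γ : ℂ) • B.indicator (fun _ => m M.Ω) u) = B.indicator fun _ => (γ : ℂ) • m M.Ω from
      (Set.indicator_const_smul _ _ _).symm]
    refine (norm_sub_le_norm_sub_add_norm_sub _ _ _).trans ((add_le_add b1 h2).trans ?_)
    linarith only [z3 ε1, hε]
  · have h2 := fun h => hXμ u (hAX hu) (hμa h)
    rw [d3 u h2 (hXB' u (hAX hu)), q1 u hu, c3 u h2 (hXB' u (hAX hu))]
  · obtain ⟨θ', hθ', h2⟩ := med_back (M := M) hTu hθ2 hDn.le (D' := D') (l := JJ j y2) (one_smul ℂ (JJ j y2) ▸ hTy 1)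
      (hDD ▸ hTB.commute (fun _ hv => Set.indicator_of_notMem hv _) _)
    rw [← hT2] at h2
    refine ⟨M.WY D' * T2, θ', fun u hu => by rw [d1 u hu, q2 u hu], hθ', h2.trans ?_, ?_⟩
    · rw [hβ2]
      linarith only [(z4 _ hl2).2 _ hDDn]
    · have h3 : ∀ (y : ℝ → K), ∀ v ∈ Bᶜ, B.indicator y v = 0 := fun _ _ hv => Set.indicator_of_notMem hv _
      rw [hT2, mul_assoc, smul_mul_assoc, mul_assoc, mul_assoc, (Unitary.mem_iff.1 hTu).2, mul_one, hD, hD']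
      exact (loc_WY (h3 _) _).mul (((one_smul ℂ (JJ j y2) ▸ loc_WZ hy2' 1).mul (loc_WY (h3 _) _)).smul _)
  · have h2 := Set.disjoint_left.1 hS0 hu
    have h3 := Set.disjoint_left.1 hS1 hu
    rw [d3 u h2 h3, p3 u (hS2 hu), c3 u h2 h3]
  · rw [(hout u hu).2, ← (hout u hu).1]
    exact (p4 u hu).mono (fun y hy => Finset.mem_union_left _ (Finset.mem_insert_of_mem hy)) (by linarith only [hωε, hω])
  · rw [(hout u hu).2, ← (hout u hu).1]
    exact (p5 u fun h => hu.2 (Or.inr h)).mono (Set.union_subset_union_right _ (Set.Ico_subset_Ico_right ha2))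
  · exact Loc.trans (hV4u u) (Loc.trans (hV3u u) (c4 _ hS0 hS1 u) ((p6 u).mono hS2)) (d4 _ hS0 hS1 u)

end Model
end Crest.Agent.R339
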