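import Crest.Agent.R339.D2.Top.B
import Crest.Agent.R339.D2.Top.C

/-! # Row 339, block D2: the top level -/

set_option autoImplicit false
open MeasureTheory ProbabilityTheory Filter Topology Complex
open Crest.MathPhysics.SpinGlass

namespace Crest.Agent.R339
variable {E K : Type} [NormedAddCommGroup E] [InnerProductSpace ℂ E]
  [NormedAddCommGroup K] [InnerProductSpace ℂ K] [CompleteSpace K]
namespace Model
variable {M : Model E K} {j : Lp K 2 mu0 →ₗᵢ[ℂ] E} {η : ℝ} {P : ℕ → List (ℝ × (ℕ → ℝ))}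
  {f : Set ℝ → ℕ → E}

/-- Cut the data into `A t = Dt η ∩ Ico (t/L) ((t+1)/L)`; run for each `t` the program of `trot`
for the terms of `ϑ` (`X = ∅`, `B = A t`, no partners): `trF = opS ϑ k (f (A t)) =: Θ_t`.
Invariant: for `u ∈ Dt η` there is `Wu` (as in `Wclose`) with `V u y ≈ Wu E_u y` on
`Y₀ = {Ω, ZΩ} ∪ {E_t* Y E_t Ω}`, `E_u = eI (Z Θ_t)` if processed, `1` otherwise (`Wu` commutes with
`E_t`). Then `ψ (RX(π/4) V u) ≈ E* Y E Ω = sin(2Θ) Ω + cos(2Θ) YΩ`; replace `Θ_t` by `Θ_∅`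
(`eI_duhamel`, `opS_lip`, `sig_lip`, error `C/√L`); `EnV_lip` (the non-data labels cost `≤ 3√η`);
finally `EnV (1_D (SΩ + C YΩ)) = topVal`: `C YΩ` is `X`-odd while `ι _` is `X`-even, and
`⟪SΩ, ι d⟫ = 0` when `d ⊥ f ∅ i` for all `i` (`SΩ` is in the closed span of the `W(Σ a_i f_i) Ω`,
`ι_W`; `d = JJ(1_D · X-odd)`). -/
theorem top (hf : M.IsSig j η P f) (h0 : 0 < η) (h1 : η ≤ 1 / 1000)
    (ϑ : List (ℝ × (ℕ → ℝ))) (k : ℕ) (h : M.ProgOK j η f k) (ε : ℝ) (hε : 0 < ε) :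
    ∃ V, M.MGood j V ∧
      M.topVal j η ϑ k (f ∅) - ε - 10 * Real.sqrt η ≤ M.EnL j (Real.pi / 4) V := by
  classical
  obtain ⟨C1, hC1, hsig⟩ := M.sig_lip hf h0 (by linarith) k
  obtain ⟨C2, hC2, hop⟩ := M.opS_lip ϑ k C1
  have hlim : Tendsto (fun L : ℕ => 4 * (C2 * (C1 * Real.sqrt (1 / (L : ℝ))))) atTop (𝓝 0) := by
    have h1 : Tendsto (fun L : ℕ => Real.sqrt (1 / (L : ℝ))) atTop (𝓝 0) := by
      have := (tendsto_one_div_atTop_nhds_zero_nat (𝕜 := ℝ)).sqrt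
      rwa [Real.sqrt_zero] at this
    simpa using ((h1.const_mul C1).const_mul C2).const_mul 4
  obtain ⟨L, hL1, hL⟩ := ((hlim.eventually (gt_mem_nhds (show (0 : ℝ) < ε / 4 by positivity))).and
    (eventually_gt_atTop 200)).exists
  have hL0 : 0 < L := by omega
  set Y : Finset K := insert M.Ω (insert (M.Z M.Ω)
    ((Finset.range L).image fun t => M.topG (M.opS ϑ k (f (tpc η L t))))) with hYdef
  have hY : ∀ y ∈ Y, ‖y‖ ≤ 1 := by
    intro y hy
    simp only [hYdef, Finset.mem_insert, Finset.mem_image] at hy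
    rcases hy with rfl | rfl | ⟨t, -, rfl⟩
    · exact M.norm_Ω.le
    · rw [unit_norm M.Z_mem, M.norm_Ω]
    · exact (M.topTh_opS _ _ _).norm_topG.le
  have hΩ : M.Ω ∈ Y := Finset.mem_insert_self _ _
  have hZ : M.Z M.Ω ∈ Y := Finset.mem_insert_of_mem (Finset.mem_insert_self _ _)
  obtain ⟨V, hV, hw⟩ := top_run hf h0 ϑ k h hL hY hΩ hZ (show 0 < ε / 8 by positivity)
  refine ⟨V, hV, ?_⟩
  have hU : ∀ u, M.RX (Real.pi / 4) * V u ∈ unitary (K →L[ℂ] K) := fun u =>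
    mul_mem (M.RX_mem _) (hV.mem M u)
  have hy : MemLp (M.psiL fun u => M.RX (Real.pi / 4) * V u) 2 mu0 :=
    ((hV.simple M).comp fun T => M.psi (M.RX (Real.pi / 4) * T)).memLp mu0
  have hclose : ∀ u ∈ Dt η, ‖M.psiL (fun u => M.RX (Real.pi / 4) * V u) u -
      M.topG (M.opS ϑ k (f ∅))‖ ≤ ε / 2 := by
    intro u hu
    obtain ⟨t, ht, hut⟩ := tpc_cover h0 hL0 hu
    have hm := tpc_meas η L t
    have ha := (M.topTh_opS ϑ k (f (tpc η L t))).psi_close (hw t ht u hut) (hV.mem M u) hΩ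
      (Finset.mem_insert_of_mem (Finset.mem_insert_of_mem
        (Finset.mem_image.2 ⟨t, Finset.mem_range.2 ht, rfl⟩)))
    have hb := (M.topTh_opS ϑ k (f (tpc η L t))).topG_lip (M.topTh_opS ϑ k (f ∅))
      (SigComm.opS M (M.sigComm_opS hf h0 ϑ k MeasurableSet.empty) ϑ k hm)
    have hc := hop (f (tpc η L t)) (f ∅) (C1 * Real.sqrt (1 / (L : ℝ))) fun i hi => by
      refine ⟨(hsig _ ∅ hm MeasurableSet.empty i hi).2,
        (hsig ∅ ∅ MeasurableSet.empty MeasurableSet.empty i hi).2, ?_⟩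
      have := (hsig ∅ _ MeasurableSet.empty hm i hi).1
      rw [Set.empty_union] at this
      exact this.trans (mul_le_mul_of_nonneg_left (Real.sqrt_le_sqrt (tpc_le η hL0 t)) hC1)
    have hd := norm_sub_le_norm_sub_add_norm_sub (M.psi (M.RX (Real.pi / 4) * V u))
      (M.topG (M.opS ϑ k (f (tpc η L t)))) (M.topG (M.opS ϑ k (f ∅)))
    change ‖M.psi (M.RX (Real.pi / 4) * V u) - _‖ ≤ _
    linarith
  have hE := EnV_close (M := M) (j := j) h0 h1 hy (fun u => (M.norm_psi (hU u)).le)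
    (M.topTh_opS ϑ k (f ∅)).norm_topG.le (by positivity) hclose
  rw [EnV_top hf] at hE
  have hs := Real.sqrt_nonneg η
  have := (abs_le.1 hE).1
  unfold EnL
  linarith

end Model
end Crest.Agent.R339
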