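import Crest.Agent.R339.D2.Prog
import Crest.Agent.R339.D2.Sub
import Crest.Agent.R339.D2.Mac
import Crest.Agent.R339.D2.Top

/-! # Row 339, block D2: assembly -/

set_option autoImplicit false
open MeasureTheory ProbabilityTheory Filter Topology Complex
open Crest.MathPhysics.SpinGlass

namespace Crest.Agent.R339
variable {E K : Type} [NormedAddCommGroup E] [InnerProductSpace ℂ E]
  [NormedAddCommGroup K] [InnerProductSpace ℂ K] [CompleteSpace K]
namespace Model
variable {M : Model E K} {j : Lp K 2 mu0 →ₗᵢ[ℂ] E} {η : ℝ} {P : ℕ → List (ℝ × (ℕ → ℝ))}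
  {f : Set ℝ → ℕ → E}

theorem readOK_all (hf : M.IsSig j η P f) (h0 : 0 < η) (h1 : η ≤ 1 / 1000) (q : ℕ) :
    ∀ i ≤ q, M.ReadOK j η f i := by
  induction q with
  | zero => intro i hi; obtain rfl : i = 0 := Nat.le_zero.mp hi; exact readOK_zero hf h0 h1
  | succ q ih =>
    intro i hi
    rcases Nat.lt_or_eq_of_le hi with hlt | rfl
    · exact ih i (Nat.lt_succ_iff.mp hlt)
    · exact readOK_succ hf h0 h1 q (subOK hf h0 h1 q (progOK hf h0 h1 q ih))

theorem _root_.Crest.Agent.R339.d2 (M : Model E K) (j : Lp K 2 mu0 →ₗᵢ[ℂ] E) : S_D2 M j := by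
  intro η h0 h1 P f hf ϑ k ε hε
  exact top hf h0 h1 ϑ k (progOK hf h0 h1 k (readOK_all hf h0 h1 k)) ε hε

end Model
end Crest.Agent.R339
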