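import Crest.Agent.R339.D2.Trot

/-! # Row 339, block D2: execution of programs -/

set_option autoImplicit false
open MeasureTheory ProbabilityTheory Filter Topology Complex
open Crest.MathPhysics.SpinGlass

namespace Crest.Agent.R339
variable {E K : Type} [NormedAddCommGroup E] [InnerProductSpace ℂ E]
  [NormedAddCommGroup K] [InnerProductSpace ℂ K] [CompleteSpace K]
namespace Model
variable {M : Model E K} {j : Lp K 2 mu0 →ₗᵢ[ℂ] E} {η : ℝ} {P : ℕ → List (ℝ × (ℕ → ℝ))}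
  {f : Set ℝ → ℕ → E}

/-- the clauses about the labels outside `B ∪ A false ∪ A true` -/
def PgC (M : Model E K) (j : Lp K 2 mu0 →ₗᵢ[ℂ] E) (η : ℝ) (f : Set ℝ → ℕ → E) (X B : Set ℝ) (A : Bool → Set ℝ)
    (V V' : ℝ → K →L[ℂ] K) (a : ℝ) (Y : Finset K) (ε : ℝ) : Prop :=
  (∀ u ∈ (X \ A true) ∪ (Set.Ico η a \ A false), V' u = V u) ∧
    (∀ u ∈ Dt η \ (X ∪ B), M.Wclose f (V u) (V' u) Y ε) ∧
    (∀ u ∉ B, M.Loc j (X ∪ Set.Ico η a) (V' u * star (V u))) ∧
    (∀ u, M.Loc j ((X \ A true) ∪ (Set.Ico η a \ A false)) (V' u * star (V u)))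

theorem PgC.trans {X B : Set ℝ} {A : Bool → Set ℝ} {V V₁ V₂ : ℝ → K →L[ℂ] K} {a a₁ ε₁ ε₂ ε : ℝ}
    {Y Y₁ : Finset K} (h : PgC M j η f X B A V V₁ a Y₁ ε₁) (h' : PgC M j η f X B A V₁ V₂ a₁ Y ε₂) (ha : a ≤ a₁)
    (hY : Y ⊆ Y₁) (hε : ε₁ + ε₂ ≤ ε) (hU : ∀ u, V₁ u ∈ unitary (K →L[ℂ] K)) :
    PgC M j η f X B A V V₂ a Y ε := by
  have s1 : Set.Ico η a ⊆ Set.Ico η a₁ := Set.Ico_subset_Ico_right ha
  have s2 : (X \ A true) ∪ (Set.Ico η a \ A false) ⊆ (X \ A true) ∪ (Set.Ico η a₁ \ A false) :=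
    Set.union_subset_union_right _ (Set.sdiff_subset_sdiff_left s1)
  exact ⟨fun u hu => (h'.1 u (s2 hu)).trans (h.1 u hu),
    fun u hu => (((h.2.1 u hu).mono hY le_rfl).trans (h'.2.1 u hu)).mono subset_rfl hε,
    fun u hu => Loc.trans (hU u) (h.2.2.1 u hu) ((h'.2.2.1 u hu).mono (Set.union_subset_union_right _ s1)),
    fun u => Loc.trans (hU u) (h.2.2.2 u) ((h'.2.2.2 u).mono s2)⟩

theorem pg_incr {U : K →L[ℂ] K} (hU : U ∈ unitary (K →L[ℂ] K)) (T : K →L[ℂ] K) : T * U * star U = T := by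
  rw [mul_assoc, hU.2, mul_one]

theorem pg_ins_mem (M : Model E K) (g : ℕ ⊕ Bool → E) (ι : Ins) : M.insOp g ι ∈ unitary (K →L[ℂ] K) := by
  cases ι
  · exact M.RX_mem _
  · exact M.WZ_mem _

/-- `WZ g'` is close to `WZ g` on finitely many vectors -/
theorem pg_cont (M : Model E K) {S : Set K} (hS : S.Finite) (g : E) {ε : ℝ} (hε : 0 < ε) :
    ∃ δ > (0 : ℝ), ∀ g', ‖g' - g‖ ≤ δ → ∀ z ∈ S, ‖M.WZ g' z - M.WZ g z‖ ≤ ε := by
  have h : ∀ᶠ g' in 𝓝 g, ∀ z ∈ S, ‖M.WZ g' z - M.WZ g z‖ ≤ ε := by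
    refine (eventually_all_finite hS).2 fun z _ => ?_
    have hc : Continuous fun g' : E => M.WZ g' z := M.continuous_WZ₂.comp (Continuous.prodMk_left z)
    filter_upwards [Metric.tendsto_nhds.1 (hc.tendsto g) ε hε] with g' hg'
    rw [dist_eq_norm] at hg'
    exact hg'.le
  obtain ⟨δ, hδ, h'⟩ := Metric.eventually_nhds_iff.1 h
  exact ⟨δ / 2, half_pos hδ, fun g' hg' => h' (by rw [dist_eq_norm]; linarith)⟩

/-- one instruction -/
theorem pg_step (hf : M.IsSig j η P f) (h0 : 0 < η) (h1 : η ≤ 1 / 1000) {q : ℕ}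
    (h : ∀ i ≤ q, M.ReadOK j η f i) (ι : Ins) (hι : ∀ n γ, ι = .rd (.inl n) γ → n ≤ q)
    {V : ℝ → K →L[ℂ] K} {a : ℝ} {X B : Set ℝ} {A : Bool → Set ℝ} (Y : Finset K) {ε : ℝ}
    (hI : M.Inv j η f V a) (hC : Ctx η (X ∪ B)) (hB : MeasurableSet B) (hXB : Disjoint X B)
    (hN : M.Near η V (X ∪ B)) (hA : ∀ b, MeasurableSet (A b)) (hA0 : A false ⊆ Set.Ico η a) (hA1 : A true ⊆ X)
    (hε : 0 < ε) :
    ∃ V' a', a ≤ a' ∧ M.Inv j η f V' a' ∧ M.Near η V' (X ∪ B) ∧
      (∃ θ : ℂ, ‖θ‖ = 1 ∧ ∀ u ∈ B, ∀ y ∈ Y, ‖V' u y - θ • M.insOp (M.progDir j f X B A V) ι (V u y)‖ ≤ ε) ∧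
      (∀ b, ∀ u ∈ A b, V' u = M.WZ (((insC (.inr b) ι : ℝ) : ℂ) • JJ j (B.indicator (M.psiL V))) * V u) ∧
      PgC M j η f X B A V V' a Y ε := by
  have hU : ∀ u, V u ∈ unitary (K →L[ℂ] K) := fun u => hI.good.mem M u
  have d1 : ∀ u ∈ Set.Ico η a, u ∉ X ∪ B := fun u hu hu' => by
    have := (hC.2.1 hu').1
    linarith [hu.2, hI.hi]
  have d2 : ∀ u ∈ X ∪ Set.Ico η a, u ∉ B := by
    rintro u (hu | hu) hu'
    · exact Set.disjoint_left.1 hXB hu hu'
    · exact d1 u hu (Or.inr hu')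
  have d3 : ∀ b, A b ⊆ X ∪ Set.Ico η a := fun b u hu => by
    cases b
    · exact Or.inr (hA0 hu)
    · exact Or.inl (hA1 hu)
  have d4 : (X \ A true) ∪ (Set.Ico η a \ A false) ⊆ X ∪ Set.Ico η a :=
    Set.union_subset_union Set.sdiff_subset Set.sdiff_subset
  have d5 : ∀ b, ∀ u ∈ (X \ A true) ∪ (Set.Ico η a \ A false), u ∉ A b := by
    rintro b u (hu | hu) hu' <;> cases b
    · exact d1 u (hA0 hu') (Or.inl hu.1)
    · exact hu.2 hu'
    · exact hu.2 hu'
    · exact d1 u hu.1 (Or.inl (hA1 hu'))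
  have d6 : ∀ b, ∀ u ∈ Dt η \ (X ∪ B), u ∉ A b := fun b u hu hu' => by
    rcases d3 b hu' with h2 | h2
    · exact hu.2 (Or.inl h2)
    · linarith [hu.1.1, h2.2, hI.hi]
  have d7 : ∀ b b', b ≠ b' → ∀ u ∈ A b, u ∉ A b' := fun b b' hb u hu hu' => by
    cases b <;> cases b'
    · exact hb rfl
    · exact d1 u (hA0 hu) (Or.inl (hA1 hu'))
    · exact d1 u (hA0 hu') (Or.inl (hA1 hu))
    · exact hb rfl
  rcases ι with θ | ⟨n | b₀, γ⟩
  · have e1 : ∀ u ∉ B, M.rotS B θ V u = V u := fun u hu => by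
      rw [rotS, Set.indicator_of_notMem hu, M.RX_zero, one_mul]
    have e2 : ∀ (T : Set ℝ) u, M.Loc j T (M.rotS B θ V u * star (V u)) := fun T u => by
      rw [rotS, pg_incr (hU u)]
      exact loc_RX _ _
    refine ⟨M.rotS B θ V, a, le_rfl, rotS_inv h0 h1 hI hC hN hB (fun u hu => Or.inl (Or.inr hu)) θ,
      (rotS_good h0 h1 hI.good hC hN hB (fun u hu => Or.inl (Or.inr hu)) θ).2,
      ⟨1, norm_one, fun u hu y _ => ?_⟩, fun b u hu => ?_, fun u hu => e1 u (d2 u (d4 hu)), fun u hu => ?_,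
      fun u _ => e2 _ u, fun u => e2 _ u⟩
    · rw [rotS, Set.indicator_of_mem hu, one_smul, insOp, mul_apply_eq_comp, sub_self, norm_zero]
      exact hε.le
    · rw [e1 u (d2 u (d3 b hu)), insC, Complex.ofReal_zero, zero_smul, M.WZ_zero, one_mul]
    · rw [e1 u fun hu' => hu.2 (Or.inr hu')]
      exact wclose_refl _ _ hε.le
  · have hS : (Set.image2 (fun (T : K →L[ℂ] K) (y : K) => T y) (Set.range V) Y).Finite :=
      (hI.good.simple M).1.image2 _ Y.finite_toSet
    obtain ⟨δ, hδ, hδ'⟩ := pg_cont M hS (((γ : ℝ) : ℂ) • f (X ∪ B) n) hε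
    obtain ⟨V', a', h2, h3, h4, ⟨g', θ, h5, h6, h7⟩, h8, h9, h10⟩ :=
      h n (hι n γ rfl) V a (X ∪ B) B γ Y (min δ ε) hI hC hN hB Set.subset_union_right (lt_min hδ hε)
    have s1 : X ∪ Set.Ico η a ⊆ ((X ∪ B) \ B) ∪ Set.Ico η a :=
      Set.union_subset_union_left _ fun u hu => ⟨Or.inl hu, Set.disjoint_left.1 hXB hu⟩
    refine ⟨V', a', h2, h3, h4, ⟨θ, h5, fun u hu y hy => ?_⟩, fun b u hu => ?_, fun u hu => h8 u (s1 (d4 hu)),
      fun u hu => (h9 u hu).mono subset_rfl (min_le_right _ _), fun u _ => (h10 u).mono s1,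
      fun u => (h10 u).mono (d4.trans s1)⟩
    · rw [h7 u hu, smul_apply, ← smul_sub, norm_smul, h5, one_mul]
      exact hδ' g' (h6.trans (min_le_left _ _)) _ (Set.mem_image2_of_mem ⟨u, rfl⟩ hy)
    · rw [h8 u (s1 (d3 b hu)), insC, if_neg (by simp), Complex.ofReal_zero, zero_smul, M.WZ_zero, one_mul]
  · have e1 : ∀ u ∉ B, u ∉ A b₀ → M.bip j B (A b₀) γ V u = V u := fun u hu hu' => by
      rw [bip, if_neg hu, if_neg hu']
    have e2 : ∀ T ⊆ X ∪ Set.Ico η a, ∀ u ∉ B, M.Loc j T (M.bip j B (A b₀) γ V u * star (V u)) := fun T hT u hu => by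
      rw [bip, if_neg hu]
      split_ifs
      · rw [pg_incr (hU u)]
        exact loc_WZ (fun v hv => Set.indicator_of_notMem (d2 v (hT hv)) _) _
      · exact loc_incr_self (hU u)
    obtain ⟨h2, h3⟩ := bip_inv hf h0 h1 hI hC hN hB (hA b₀)
      (Set.disjoint_left.2 fun u hu hu' => d2 u (d3 b₀ hu') hu) (fun u hu => Or.inl (Or.inr hu))
      (fun u hu => (d3 b₀ hu).imp Or.inl fun h2 => ⟨h0.le.trans h2.1, h2.2⟩) γ
    refine ⟨M.bip j B (A b₀) γ V, a, le_rfl, h2, h3, ⟨1, norm_one, fun u hu y _ => ?_⟩, fun b u hu => ?_,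
      fun u hu => e1 u (d2 u (d4 hu)) (d5 b₀ u hu), fun u hu => ?_, e2 _ subset_rfl, fun u => ?_⟩
    · rw [bip, if_pos hu, one_smul, insOp, progDir, mul_apply_eq_comp, sub_self, norm_zero]
      exact hε.le
    · by_cases hb : b = b₀
      · subst hb
        rw [bip, if_neg (d2 u (d3 b hu)), if_pos hu, insC, if_pos rfl]
      · rw [e1 u (d2 u (d3 b hu)) (d7 b b₀ hb u hu), insC, if_neg (by simpa using Ne.symm hb), Complex.ofReal_zero,
          zero_smul, M.WZ_zero, one_mul]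
    · rw [e1 u (fun hu' => hu.2 (Or.inr hu')) (d6 b₀ u hu)]
      exact wclose_refl _ _ hε.le
    · by_cases hu : u ∈ B
      · rw [bip, if_pos hu, pg_incr (hU u)]
        exact loc_WZ (fun v hv => Set.indicator_of_notMem (d5 b₀ v hv) _) _
      · exact e2 _ d4 u hu

theorem pg_sand {θ : ℂ} (hθ : ‖θ‖ = 1) (T L : K →L[ℂ] K) (x : K) :
    star (θ • T) (L ((θ • T) x)) = star T (L (T x)) := by
  rw [star_smul, smul_apply, smul_apply, map_smul, map_smul, smul_smul,
    Complex.star_def, Complex.conj_mul', hθ]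
  simp

/-- Induction on `p` (head first), generalising `V a Y ε`. `rot θ`: `rotS B θ`. `rd (inr b) γ`:
`bip B (A b) γ`. `rd (inl i) γ`: `h i` with context `X ∪ B`, receivers `B`; by `continuous_WZ₂`
at the finitely many vectors `V u y` (`V` simple) the operator `WZ g'` is close to the ideal one.
`progDir` is unchanged by one instruction (`ψ` is unchanged on `A b`). For the tail of the
program apply the induction hypothesis to the new configuration `V₁`; the first step must be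
accurate on `Y`, on `Ω` and on the finitely many vectors `(op V u)* Λ (op V u) Ω` (`sand_close`,
`norm_JJ_le`). Phases multiply (`WZ_mul`). -/
theorem progOK (hf : M.IsSig j η P f) (h0 : 0 < η) (h1 : η ≤ 1 / 1000) (q : ℕ)
    (h : ∀ i ≤ q, M.ReadOK j η f i) : M.ProgOK j η f q := by
  classical
  intro p
  induction p with
  | nil =>
    intro V a X B A Y ε _ hI _ _ _ _ hN _ _ _ hε
    have hU : ∀ u, V u ∈ unitary (K →L[ℂ] K) := fun u => hI.good.mem M u
    refine ⟨V, a, le_rfl, hI, hN, ⟨1, norm_one, fun u _ y _ => by simpa [progU] using hε.le⟩,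
      fun b => ⟨1, fun _ => 0, norm_one, MemLp.zero', fun _ _ => rfl, ?_, fun u _ => ?_⟩, fun _ _ => rfl,
      fun u _ => wclose_refl _ _ hε.le, fun u _ => loc_incr_self (hU u), fun u => loc_incr_self (hU u)⟩
    · simpa [progL, JJ_zero] using hε.le
    · rw [JJ_zero, M.WZ_zero, one_mul, one_smul]
  | cons ι p ih =>
    intro V a X B A Y ε hp hI hC hX hB hXB hN hA hA0 hA1 hε
    set g := M.progDir j f X B A V with hg
    have hU : ∀ u, V u ∈ unitary (K →L[ℂ] K) := fun u => hI.good.mem M u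
    have hVs : Simple V := hI.good.simple M
    let w : Bool → (K →L[ℂ] K) → K := fun b T =>
      star (M.insOp g ι * T) (M.progL g (.inr b) p ((M.insOp g ι * T) M.Ω))
    have hw : (Set.image2 w Set.univ (Set.range V)).Finite := Set.finite_univ.image2 _ hVs.1
    set Λ : ℝ := ‖M.progL g (.inr false) p‖ + ‖M.progL g (.inr true) p‖ + 1 with hΛ
    have hΛ1 : ∀ b, ‖M.progL g (.inr b) p‖ + 1 ≤ Λ := fun b => by
      cases b <;> linarith [norm_nonneg (M.progL g (.inr false) p), norm_nonneg (M.progL g (.inr true) p)]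
    have hΛ0 : 1 ≤ Λ := by linarith [hΛ1 true, norm_nonneg (M.progL g (.inr true) p)]
    set ε₁ : ℝ := ε / 2 / Λ with hε₁
    have hε1 : 0 < ε₁ := by positivity
    have hε2 : ε₁ ≤ ε / 2 := div_le_self (by positivity) hΛ0
    have hε3 : Λ * ε₁ = ε / 2 := mul_div_cancel₀ _ (by positivity)
    obtain ⟨V₁, a₁, k1, k2, k3, ⟨θ₁, k4, k5⟩, k6, k7⟩ := pg_step hf h0 h1 h ι
      (fun n γ e => hp (.inl n) γ (by rw [e]; exact List.mem_cons_self) n rfl)
      (insert M.Ω (Y ∪ hw.toFinset)) hI hC hB hXB hN hA hA0 hA1 hε1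
    rw [← hg] at k5
    have hU1 : ∀ u, V₁ u ∈ unitary (K →L[ℂ] K) := fun u => k2.good.mem M u
    have hV1 : Simple V₁ := k2.good.simple M
    have hg1 : M.progDir j f X B A V₁ = g := by
      funext i
      rcases i with i | b
      · rfl
      · rw [hg, progDir, progDir, Set.indicator_congr fun u hu => ?_]
        rw [psiL, psiL, k6 b u hu, M.psi_mul_of_commute (M.WZ_mem _) (M.Z_WZ _)]
    obtain ⟨V₂, a₂, l1, l2, l3, ⟨θ₂, l4, l5⟩, l6, l7⟩ := ih V₁ a₁ X B A Y (ε / 2)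
      (fun i γ e => hp i γ (List.mem_cons_of_mem _ e)) k2 hC hX hB hXB k3 hA
      (hA0.trans (Set.Ico_subset_Ico_right k1)) hA1 (half_pos hε)
    rw [hg1] at l5 l6
    have hY : Y ⊆ insert M.Ω (Y ∪ hw.toFinset) := Finset.subset_union_left.trans (Finset.subset_insert _ _)
    refine ⟨V₂, a₂, k1.trans l1, l2, l3, ⟨θ₂ * θ₁, by rw [norm_mul, l4, k4, one_mul], fun u hu y hy => ?_⟩,
      fun b => ?_, PgC.trans k7 l7 k1 hY (by linarith) hU1⟩
    · have e : V₂ u y - (θ₂ * θ₁) • M.progU g (ι :: p) (V u y) = (V₂ u y - θ₂ • M.progU g p (V₁ u y)) +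
          θ₂ • M.progU g p (V₁ u y - θ₁ • M.insOp g ι (V u y)) := by
        rw [progU, mul_apply_eq_comp, map_sub, map_smul, smul_sub, smul_smul, sub_add_sub_cancel]
      rw [e]
      refine (norm_add_le _ _).trans ?_
      rw [norm_smul, l4, one_mul, unit_norm (M.progU_mem g p)]
      linarith [l5 u hu y hy, k5 u hu y (hY hy)]
    · obtain ⟨θ, y₂, m1, m2, m3, m4, m5⟩ := l6 b
      set c : ℂ := ((insC (.inr b) ι : ℝ) : ℂ) with hc
      have n1 : MemLp (B.indicator (M.psiL V)) 2 mu0 := ((hVs.comp M.psi).indicator hB).memLp mu0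
      have n2 : MemLp (fun u => c • B.indicator (M.psiL V) u) 2 mu0 := n1.const_smul c
      have n3 : MemLp (B.indicator fun u => w b (V u)) 2 mu0 := ((hVs.comp (w b)).indicator hB).memLp mu0
      have n4 : MemLp (B.indicator fun u => star (V₁ u) (M.progL g (.inr b) p (V₁ u M.Ω))) 2 mu0 :=
        ((hV1.comp fun T => star T (M.progL g (.inr b) p (T M.Ω))).indicator hB).memLp mu0
      refine ⟨θ * cexp (-(I * ((inner ℂ (JJ j y₂) (c • JJ j (B.indicator (M.psiL V)))).im : ℂ))),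
        fun u => y₂ u + c • B.indicator (M.psiL V) u, ?_, m2.add n2,
        fun u hu => by simp only [m3 u hu, Set.indicator_of_notMem hu, smul_zero, add_zero], ?_, fun u hu => ?_⟩
      · rw [norm_mul, m1, one_mul, Complex.norm_exp]
        simp
      · have e1 : (B.indicator fun u => star (V u) (M.progL g (.inr b) (ι :: p) (V u M.Ω))) =
            fun u => B.indicator (fun u => w b (V u)) u + c • B.indicator (M.psiL V) u := by
          funext u
          by_cases hu : u ∈ B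
          · simp only [Set.indicator_of_mem hu, progL, w, psiL, psi, star_mul, mul_apply_eq_comp,
              add_apply, smul_apply, map_add, map_smul, hc]
            rw [add_comm]
          · simp [Set.indicator_of_notMem hu]
        rw [e1, JJ_add j m2 n2, JJ_add j n3 n2, add_sub_add_right_eq_sub,
          ← sub_add_sub_cancel _ (JJ j (B.indicator fun u => star (V₁ u) (M.progL g (.inr b) p (V₁ u M.Ω)))),
          ← JJ_sub j n4 n3]
        refine (norm_add_le _ _).trans ?_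
        have e2 := norm_JJ_le j (μ := mu0) (c := ε / 2) (y := fun u =>
          B.indicator (fun u => star (V₁ u) (M.progL g (.inr b) p (V₁ u M.Ω))) u - B.indicator (fun u => w b (V u)) u)
          hB (half_pos hε).le (fun u hu => ?_) fun u hu => by simp [Set.indicator_of_notMem hu]
        · have e3 : Real.sqrt (mu0.real B) ≤ 1 := Real.sqrt_le_one.2 measureReal_le_one
          nlinarith
        · have hT : θ₁ • (M.insOp g ι * V u) ∈ unitary (K →L[ℂ] K) :=
            unit_smul (mul_mem (pg_ins_mem M g ι) (hU u)) k4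
          have e4 := sand_close (hU1 u) hT (M.progL g (.inr b) p) M.Ω
          rw [pg_sand k4] at e4
          have e5 := k5 u hu M.Ω (Finset.mem_insert_self _ _)
          have e6 := k5 u hu (w b (V u)) (Finset.mem_insert_of_mem (Finset.mem_union_right _
            (hw.mem_toFinset.2 (Set.mem_image2_of_mem (Set.mem_univ b) ⟨u, rfl⟩))))
          rw [Set.indicator_of_mem hu, Set.indicator_of_mem hu]
          refine e4.trans ((add_le_add (mul_le_mul_of_nonneg_left e5 (norm_nonneg _)) e6).trans ?_)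
          nlinarith [hΛ1 b]
      · rw [m5 u hu, k6 b u hu, ← mul_assoc, M.WZ_mul, JJ_add j m2 n2, JJ_smul, smul_mul_assoc, smul_smul]

end Model
end Crest.Agent.R339
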