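import Crest.Agent.R339.D2.Bip
import Crest.Agent.R339.D2.Trot.Step

/-! # Row 339, block D2: Trotter programs -/

set_option autoImplicit false
open MeasureTheory ProbabilityTheory Filter Topology Complex
open Crest.MathPhysics.SpinGlass

namespace Crest.Agent.R339
variable {E K : Type} [NormedAddCommGroup E] [InnerProductSpace ℂ E]
  [NormedAddCommGroup K] [InnerProductSpace ℂ K] [CompleteSpace K]
namespace Model
variable {M : Model E K} {j : Lp K 2 mu0 →ₗᵢ[ℂ] E} {η : ℝ} {P : ℕ → List (ℝ × (ℕ → ℝ))}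
  {f : Set ℝ → ℕ → E}

theorem progU_mem (M : Model E K) (g : ℕ ⊕ Bool → E) (p : List Ins) :
    M.progU g p ∈ unitary (K →L[ℂ] K) := by
  induction p with
  | nil => exact one_mem _
  | cons ι p ih =>
    refine mul_mem ih ?_
    cases ι
    · exact M.RX_mem _
    · exact M.WZ_mem _
theorem progU_append (M : Model E K) (g : ℕ ⊕ Bool → E) (p p' : List Ins) :
    M.progU g (p ++ p') = M.progU g p' * M.progU g p := by
  induction p with
  | nil => simp [progU]
  | cons ι p ih => rw [List.cons_append, progU, progU, ih, mul_assoc]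
theorem progL_append (M : Model E K) (g : ℕ ⊕ Bool → E) (b : ℕ ⊕ Bool) (p p' : List Ins) :
    M.progL g b (p ++ p') =
      M.progL g b p + star (M.progU g p) * M.progL g b p' * M.progU g p := by
  induction p with
  | nil => simp [progU, progL]
  | cons ι p ih =>
    rw [List.cons_append, progL, progL, progU, ih]
    simp only [star_mul, mul_add, add_mul, mul_assoc, add_assoc]

theorem trot_in {s : Set (ℕ ⊕ Bool)} {p p' : List Ins} (h : ProgIn s p) (h' : ProgIn s p') : ProgIn s (p ++ p') :=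
  fun i γ hi => (List.mem_append.1 hi).elim (h i γ) (h' i γ)

theorem trot_rot {s : Set (ℕ ⊕ Bool)} {p : List Ins} (h : ProgIn s p) (θ : ℝ) : ProgIn s (.rot θ :: p) :=
  fun i γ hi => h i γ (by simpa using hi)

theorem trot_im {s s' : Finset (ℕ ⊕ Bool)} {g : ℕ ⊕ Bool → E}
    (hg : ∀ i ∈ s, ∀ i' ∈ s', (inner ℂ (g i) (g i')).im = 0) (a a' : ℕ ⊕ Bool → ℝ) :
    (inner ℂ (dirOf s g a) (dirOf s' g a')).im = 0 := by
  simp only [dirOf, sum_inner, inner_sum, inner_smul_left, inner_smul_right, conj_ofReal, im_sum, im_ofReal_mul]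
  exact Finset.sum_eq_zero fun i' hi' => by
    rw [Finset.sum_eq_zero fun i hi => by rw [hg i hi i' hi', mul_zero], mul_zero]

theorem trot_read (M : Model E K) (s : Finset (ℕ ⊕ Bool)) (a : ℕ ⊕ Bool → ℝ) : ∃ p : List Ins, ProgIn (↑s) p ∧
    ∀ g : ℕ ⊕ Bool → E, (∀ i ∈ s, ∀ i' ∈ s, (inner ℂ (g i) (g i')).im = 0) →
      M.progU g p = M.WZ (dirOf s g a) ∧ ∀ b, M.progL g b p = ((if b ∈ s then a b else 0 : ℝ) : ℂ) • M.Z := by
  induction s using Finset.induction_on with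
  | empty => exact ⟨[], fun _ _ h => by simp at h, fun g _ => by simp [progU, progL, dirOf, M.WZ_zero]⟩
  | insert i s hi ih =>
    obtain ⟨p, h1, h2⟩ := ih
    refine ⟨.rd i (a i) :: p, fun i' γ h => ?_, fun g hg => ?_⟩
    · rcases List.mem_cons.1 h with h | h
      · cases h
        simp
      · simp [Finset.mem_coe.1 (h1 _ _ h)]
    obtain ⟨h3, h4⟩ := h2 g fun i hi i' hi' => hg i (by simp [hi]) i' (by simp [hi'])
    have h5 := trot_im (s := s) (s' := {i}) (g := g) (fun i hi i' hi' => hg i (by simp [hi]) i'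
      (by simp [Finset.mem_singleton.1 hi'])) a a
    rw [dirOf, dirOf, Finset.sum_singleton] at h5
    refine ⟨?_, fun b => ?_⟩
    · rw [progU, h3, insOp, M.WZ_mul, dirOf, dirOf, h5, Finset.sum_insert hi, add_comm]
      simp
    · rw [progL, h4, insOp, mul_smul_comm, smul_mul_assoc, mul_assoc, (M.Z_WZ _).eq, ← mul_assoc,
        Unitary.star_mul_self_of_mem (M.WZ_mem _), one_mul, ← add_smul, ← ofReal_add, insC]
      congr 2
      by_cases hb : i = b
      · subst hb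
        simp [hi]
      · simp [hb, Ne.symm hb]

/-- the program `p` approximates `(eI A, D)` -/
def trot_Ap (M : Model E K) (s : Finset (ℕ ⊕ Bool)) (g : ℕ ⊕ Bool → E) (p : List Ins) (A : K →L[ℂ] K)
    (D : ℕ ⊕ Bool → K →L[ℂ] K) (δ ε : ℝ) : Prop :=
  ‖M.progU g p - eI A‖ ≤ δ ∧ ∀ b ∈ s, ‖M.progL g b p - D b‖ ≤ ε

theorem trot_comp {s : Finset (ℕ ⊕ Bool)} {g : ℕ ⊕ Bool → E} {p p' : List Ins} {A A' : K →L[ℂ] K}
    {D D' : ℕ ⊕ Bool → K →L[ℂ] K} {δ ε δ' ε' κ : ℝ} (h : M.trot_Ap s g p A D δ ε) (h' : M.trot_Ap s g p' A' D' δ' ε')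
    (hA : star A = A) (hAA : Commute A' A) (hD : ∀ b, Commute (D' b) A) (hκ : ∀ b ∈ s, ‖D' b‖ ≤ κ) :
    M.trot_Ap s g (p ++ p') (A' + A) (D' + D) (δ + δ') (ε + ε' + 2 * κ * δ) := by
  refine ⟨?_, fun b hb => ?_⟩
  · rw [progU_append, eI_add hAA]
    exact trot_c1 (M.progU_mem g p') (eI_mem hA) h.1 h'.1
  · rw [progL_append]
    exact trot_c2 (M.progU_mem g p) (eI_commute (hD b)) h.1 (h.2 b hb) (h'.2 b hb) (hκ b hb)

theorem trot_rep {s : Finset (ℕ ⊕ Bool)} {g : ℕ ⊕ Bool → E} {p : List Ins} {A : K →L[ℂ] K}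
    {D : ℕ ⊕ Bool → K →L[ℂ] K} {δ ε κ : ℝ} (h : M.trot_Ap s g p A D δ ε) (hA : star A = A)
    (hD : ∀ b, Commute (D b) A) (hκ : ∀ b ∈ s, ‖D b‖ ≤ κ) (hκ0 : 0 ≤ κ) (N : ℕ) :
    M.trot_Ap s g (List.replicate N p).flatten ((N : ℝ) • A) ((N : ℝ) • D) (N * δ) (N * ε + N ^ 2 * κ * δ) := by
  induction N with
  | zero => simp [trot_Ap, progU, progL, eI_zero]
  | succ N ih =>
    have := trot_comp ih h (a0_star_smul hA N) ((Commute.refl A).smul_right _) (fun b => (hD b).smul_right _) hκ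
    have h0 := mul_nonneg hκ0 ((norm_nonneg _).trans h.1)
    rw [List.replicate_succ', List.flatten_append, List.flatten_singleton, Nat.cast_succ, add_smul, add_smul, one_smul,
      one_smul, add_comm _ A, add_comm _ D]
    exact ⟨this.1.trans_eq (by ring), fun b hb => (this.2 b hb).trans (by nlinarith)⟩

theorem trot_comm {s : Finset (ℕ ⊕ Bool)} {g : ℕ ⊕ Bool → E}
    (hg : ∀ i ∈ s, ∀ i' ∈ s, (inner ℂ (g i) (g i')).im = 0) (a a' : ℕ ⊕ Bool → ℝ) (c c' : ℂ) :
    Commute (M.Z * c • M.sinW (dirOf s g a)) (M.Z * c' • M.sinW (dirOf s g a')) ∧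
      Commute (M.Z * c • M.cosW (dirOf s g a)) (M.Z * c' • M.sinW (dirOf s g a')) := by
  have h0 := trot_im hg a' a
  have h1 : ∀ u, (inner ℂ (dirOf s g a') u).im = 0 → Commute (M.W u) (M.Z * c' • M.sinW (dirOf s g a')) := fun u hu =>
    (M.Z_W u).symm.mul_right ((M.sinW_commute (M.W_commute hu) (M.W_commute (by simp [hu]))).symm.smul_right _)
  have h2 : Commute M.Z (M.Z * c' • M.sinW (dirOf s g a')) :=
    (Commute.refl _).mul_right ((M.sinW_commute (M.Z_W _).symm (M.Z_W _).symm).symm.smul_right _)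
  have h3 := h1 _ h0
  have h4 := h1 (-dirOf s g a) (by simp [h0])
  exact ⟨h2.mul_left ((M.sinW_commute h3 h4).smul_left _), h2.mul_left ((M.cosW_commute h3 h4).smul_left _)⟩

theorem trot_sa (M : Model E K) (h : E) (c : ℝ) : star (M.Z * (c : ℂ) • M.sinW h) = M.Z * (c : ℂ) • M.sinW h := by
  rw [star_mul, star_smul, M.Z_star, M.sinW_star, smul_mul_assoc, mul_smul_comm,
    (M.sinW_commute (M.Z_W _).symm (M.Z_W _).symm).eq]
  simp

theorem trot_nrm (M : Model E K) {T : K →L[ℂ] K} (hT : ‖T‖ ≤ 1) (c : ℝ) : ‖M.Z * (c : ℂ) • T‖ ≤ |c| := by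
  rw [CStarRing.norm_mem_unitary_mul _ M.Z_mem]
  exact (trot_smul hT c).trans_eq (mul_one _)

theorem trot_step (M : Model E K) (s : Finset (ℕ ⊕ Bool)) (a : ℕ ⊕ Bool → ℝ) (t : ℝ) : ∃ p : List Ins, ProgIn (↑s) p ∧
    ∀ g : ℕ ⊕ Bool → E, (∀ i ∈ s, ∀ i' ∈ s, (inner ℂ (g i) (g i')).im = 0) →
      M.trot_Ap s g p (M.Z * ((2 * t : ℝ) : ℂ) • M.sinW (dirOf s g a))
        (fun b => M.Z * ((2 * t * a b : ℝ) : ℂ) • M.cosW (dirOf s g a)) (8 * t ^ 2) (7 * (∑ i ∈ s, |a i|) * t ^ 2) := by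
  obtain ⟨p, h1, h2⟩ := M.trot_read s fun i => a i / 2
  obtain ⟨q, h3, h4⟩ := M.trot_read s fun i => -a i
  refine ⟨.rot (-(Real.pi / 4)) :: (p ++ .rot (-t) :: (q ++ .rot t :: (p ++ [.rot (Real.pi / 4)]))),
    trot_rot (trot_in h1 (trot_rot (trot_in h3 (trot_rot (trot_in h1 (trot_rot (fun _ _ h => by simp at h) _)) _)) _)) _,
    fun g hg => ?_⟩
  obtain ⟨h5, h6⟩ := h2 g hg
  obtain ⟨h7, h8⟩ := h4 g hg
  have e1 : dirOf s g a = dirOf s g (fun i => a i / 2) + dirOf s g fun i => a i / 2 := by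
    simp only [dirOf, ← Finset.sum_add_distrib, ← add_smul, ← ofReal_add, add_halves]
  have e2 : dirOf s g (fun i => -a i) = -dirOf s g a := by simp [dirOf]
  rw [e2, e1] at h7
  rw [e1]
  refine ⟨?_, fun b hb => ?_⟩
  · simp only [progU, progU_append, h5, h7, insOp, one_mul]
    have h9 := eI_taylor (M.trot_sa (dirOf s g (fun i => a i / 2) + dirOf s g fun i => a i / 2) (2 * t))
    have h10 := pow_le_pow_left₀ (norm_nonneg _)
      (M.trot_nrm (M.norm_sinW (dirOf s g (fun i => a i / 2) + dirOf s g fun i => a i / 2)) (2 * t)) 2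
    rw [sq_abs] at h10
    rw [norm_sub_rev] at h9
    refine (norm_sub_le_norm_sub_add_norm_sub _ _ _).trans ((add_le_add (M.trot_stepU _ t) h9).trans ?_)
    linarith
  · have h9 := trot_smul (M.trot_stepL (dirOf s g fun i => a i / 2) t) (a b / 2)
    have h10 := Finset.single_le_sum (f := fun i => |a i|) (fun _ _ => abs_nonneg _) hb
    rw [abs_div, abs_two] at h9
    refine Eq.trans_le ?_ (h9.trans (by nlinarith [sq_nonneg t]))
    simp only [progL, progL_append, h5, h7, h6, h8, insOp, insC, if_pos hb, ofReal_zero, zero_smul, mul_zero, zero_mul,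
      add_zero, zero_add, mul_add, add_mul, mul_smul_comm, smul_mul_assoc]
    congr 1
    push_cast
    module

theorem trot_term (M : Model E K) (s : Finset (ℕ ⊕ Bool)) (a : ℕ ⊕ Bool → ℝ) (c : ℝ) {δ : ℝ} (hδ : 0 < δ) :
    ∃ p : List Ins, ProgIn (↑s) p ∧ ∀ g : ℕ ⊕ Bool → E, (∀ i ∈ s, ∀ i' ∈ s, (inner ℂ (g i) (g i')).im = 0) →
      M.trot_Ap s g p (M.Z * (c : ℂ) • M.sinW (dirOf s g a))
        (fun b => M.Z * ((c * a b : ℝ) : ℂ) • M.cosW (dirOf s g a)) δ δ := by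
  have hS : 0 ≤ ∑ i ∈ s, |a i| := Finset.sum_nonneg fun _ _ => abs_nonneg _
  obtain ⟨N, hN⟩ := exists_nat_gt ((2 * c ^ 2 + 2 * (∑ i ∈ s, |a i|) * c ^ 2 * (1 + |c|)) / δ)
  have hN0 : (0 : ℝ) < N := lt_of_le_of_lt (by positivity) hN
  obtain ⟨p, h1, h2⟩ := M.trot_step s a (c / (2 * N))
  refine ⟨(List.replicate N p).flatten, fun i γ h => ?_, fun g hg => ?_⟩
  · obtain ⟨l, hl, h⟩ := List.mem_flatten.1 h
    exact h1 i γ (List.eq_of_mem_replicate hl ▸ h)
  have h3 := trot_rep (κ := |c| / N * ∑ i ∈ s, |a i|) (h2 g hg) (M.trot_sa _ _) (fun b => (trot_comm hg _ _ _ _).2)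
    (fun b hb => (M.trot_nrm (M.norm_cosW _) _).trans (by
      rw [abs_mul, show 2 * (c / (2 * N)) = c / N by field_simp, abs_div, abs_of_pos hN0]
      gcongr
      exact Finset.single_le_sum (f := fun i => |a i|) (fun _ _ => abs_nonneg _) hb)) (by positivity) N
  have e : ∀ (x : ℝ) (T : K →L[ℂ] K), (N : ℝ) • (M.Z * (x : ℂ) • T) = M.Z * ((N * x : ℝ) : ℂ) • T := fun x T => by
    rw [← mul_smul_comm, ofReal_mul, mul_smul, coe_smul, coe_smul]
  rw [div_lt_iff₀ hδ, mul_comm _ δ, ← div_lt_iff₀ hN0] at hN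
  have h4 : 0 ≤ (∑ i ∈ s, |a i|) * c ^ 2 / N := by positivity
  have h5 : 0 ≤ c ^ 2 / N := by positivity
  have h6 : 0 ≤ (∑ i ∈ s, |a i|) * c ^ 2 * |c| / N := by positivity
  have e1 : (N : ℝ) * (2 * (c / (2 * N))) = c := by field_simp
  refine ⟨?_, fun b hb => ?_⟩
  · have := h3.1
    rw [e, e1, show N * (8 * (c / (2 * N)) ^ 2) = 2 * (c ^ 2 / N) by field_simp; ring] at this
    refine this.trans (le_trans ?_ hN.le)
    ring_nf at h4 h5 h6 ⊢
    linarith
  · have := h3.2 b hb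
    rw [Pi.smul_apply, e, ← mul_assoc, e1, show N * (7 * (∑ i ∈ s, |a i|) * (c / (2 * N)) ^ 2) +
      N ^ 2 * (|c| / N * ∑ i ∈ s, |a i|) * (8 * (c / (2 * N)) ^ 2) =
        7 / 4 * ((∑ i ∈ s, |a i|) * c ^ 2 / N) + 2 * ((∑ i ∈ s, |a i|) * c ^ 2 * |c| / N) by field_simp; ring] at this
    refine this.trans (le_trans ?_ hN.le)
    ring_nf at h4 h5 h6 ⊢
    linarith

/-- One term `(c, a)`, `h = dirOf s g a`, `S = WZ (h/2)`; `Eread t` = the list of
`rd i (t * a i)`, `i ∈ s.toList`, has `progU = WZ (t h)` and `progL b = t a_b Z`.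
Step (time order): `rot (-π/4), Eread (1/2), rot (-t), Eread (-1), rot t, Eread (1/2), rot (π/4)`;
`S* X S = X cos - Y sin`, `S X S* = X cos + Y sin`, `RX(π/4) Y RX(π/4)* = Z`, so
`progU step = 1 - 2 i t Z sinW h + O(t²)` and `progL b step = 2 t a_b Z cosW h + O(t²)`
(constants depend only on `|a_b|`). `N` steps with `t = c/(2N)`: `trotter_pow`, `eI_taylor`,
`eI_pow`; `progL` of the `N`-fold repetition by `progL_append` (`Z cosW h` commutes with
`eI (Z c sinW h / N)`). Several terms: induction on `T` (`eI_add`, everything commutes). -/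
theorem trot (M : Model E K) : M.S_TROT := by
  intro s T
  induction T with
  | nil => exact fun δ hδ => ⟨[], fun _ _ h => by simp at h, fun g _ => by simp [progU, progL, trF, trD, eI_zero, hδ.le]⟩
  | cons t T ih =>
    intro δ hδ
    have hS : 0 ≤ |t.1| * ∑ i ∈ s, |t.2 i| := mul_nonneg (abs_nonneg _) (Finset.sum_nonneg fun _ _ => abs_nonneg _)
    obtain ⟨p, h1, h2⟩ := ih (δ / 2 / (1 + 2 * (|t.1| * ∑ i ∈ s, |t.2 i|))) (by positivity)
    obtain ⟨q, h3, h4⟩ := M.trot_term s t.2 t.1 (half_pos hδ)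
    refine ⟨p ++ q, trot_in h1 h3, fun g hg => ?_⟩
    have h5 : ∀ (T : List (ℝ × (ℕ ⊕ Bool → ℝ))), star (M.Z * M.trF s g T) = M.Z * M.trF s g T ∧
        ∀ a c, Commute (M.Z * c • M.sinW (dirOf s g a)) (M.Z * M.trF s g T) ∧
          Commute (M.Z * c • M.cosW (dirOf s g a)) (M.Z * M.trF s g T) := fun T => by
      induction T with
      | nil => simp [trF]
      | cons t T ih =>
        rw [trF, List.map_cons, List.sum_cons, mul_add, star_add, M.trot_sa]
        exact ⟨congrArg _ ih.1, fun a c => ⟨(trot_comm hg _ _ _ _).1.add_right (ih.2 a c).1,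
          (trot_comm hg _ _ _ _).2.add_right (ih.2 a c).2⟩⟩
    have h6 := trot_comp (κ := |t.1| * ∑ i ∈ s, |t.2 i|) (h2 g hg) (h4 g hg) (h5 T).1 ((h5 T).2 _ _).1
      (fun b => ((h5 T).2 _ _).2) fun b hb => (M.trot_nrm (M.norm_cosW _) _).trans (by
        rw [abs_mul]
        gcongr
        exact Finset.single_le_sum (f := fun i => |t.2 i|) (fun _ _ => abs_nonneg _) hb)
    generalize |t.1| * ∑ i ∈ s, |t.2 i| = κ at h6 hS
    have h7 : δ / 2 / (1 + 2 * κ) ≤ δ / 2 := div_le_self (half_pos hδ).le (by linarith)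
    have h8 : δ / 2 / (1 + 2 * κ) + δ / 2 + 2 * κ * (δ / 2 / (1 + 2 * κ)) = δ := by
      field_simp
      ring
    simp only [trF, trD, List.map_cons, List.sum_cons, mul_add]
    exact ⟨h6.1.trans (by linarith), fun b hb => (h6.2 b hb).trans_eq h8⟩

end Model
end Crest.Agent.R339
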